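import Crest.Agent.R134.Step

/-! # rid 134: the limit (Baire category) -/

set_option autoImplicit false

open Crest.Agent.R95 Filter Topology

namespace Crest.Agent.R134

variable {α A : Type*} [CStarAlgebra A] {τ : Tr A}

theorem star_of_unitary {G : Type*} [Group G] {π : G →* A} (h : ∀ g, π g ∈ unitary A) (g : G) :
    star (π g) = π g⁻¹ := by
  have h1 : star (π g) * (π g * π g⁻¹) = π g⁻¹ := by rw [← mul_assoc, (h g).1, one_mul]
  rwa [← map_mul, mul_inv_cancel, map_one, mul_one] at h1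

/-- words are Lipschitz functions of the generators -/
theorem lip_word (τ : Tr A) (g : FreeGroup α) : ∃ C : ℝ, 0 ≤ C ∧ ∀ π π' : FreeGroup α →* A,
    (∀ g, π g ∈ unitary A) → (∀ g, π' g ∈ unitary A) → ∀ η : ℝ, 0 ≤ η →
    (∀ i, τ.n (π (FreeGroup.of i) - π' (FreeGroup.of i)) ≤ η) → τ.n (π g - π' g) ≤ C * η := by
  induction g using FreeGroup.induction_on with
  | C1 => exact ⟨0, le_rfl, fun π π' _ _ η _ _ => by simp⟩
  | of i => exact ⟨1, zero_le_one, fun π π' _ _ η _ h => by simpa using h i⟩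
  | inv_of i _ =>
    refine ⟨1, zero_le_one, fun π π' h1 h2 η _ h => ?_⟩
    rw [← star_of_unitary h1, ← star_of_unitary h2, ← star_sub, τ.n_star, one_mul]
    exact h i
  | mul x y hx hy =>
    obtain ⟨C, hC, hx⟩ := hx
    obtain ⟨C', hC', hy⟩ := hy
    refine ⟨C + C', add_nonneg hC hC', fun π π' h1 h2 η hη h => ?_⟩
    have e : π (x * y) - π' (x * y) = (π x - π' x) * π y + π' x * (π y - π' y) := by
      rw [map_mul, map_mul]; noncomm_ring
    rw [e, add_mul]
    refine (map_add_le_add _ _ _).trans (add_le_add ?_ ?_)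
    · rw [τ.n_mul_unitary (h1 y)]; exact hx π π' h1 h2 η hη h
    · rw [τ.n_unitary_mul (h2 x)]; exact hy π π' h1 h2 η hη h

theorem lip_lc (τ : Tr A) (c : FreeGroup α →₀ ℂ) : ∃ C : ℝ, 0 ≤ C ∧ ∀ π π' : FreeGroup α →* A,
    (∀ g, π g ∈ unitary A) → (∀ g, π' g ∈ unitary A) → ∀ η : ℝ, 0 ≤ η →
    (∀ i, τ.n (π (FreeGroup.of i) - π' (FreeGroup.of i)) ≤ η) →
    τ.n (Finsupp.linearCombination ℂ π c - Finsupp.linearCombination ℂ π' c) ≤ C * η := by
  induction c using Finsupp.induction_linear with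
  | zero => exact ⟨0, le_rfl, fun π π' _ _ η _ _ => by simp⟩
  | single g z =>
    obtain ⟨C, hC, hg⟩ := lip_word τ g
    refine ⟨‖z‖ * C, by positivity, fun π π' h1 h2 η hη h => ?_⟩
    rw [Finsupp.linearCombination_single, Finsupp.linearCombination_single, ← smul_sub,
      map_smul_eq_mul, mul_assoc]
    exact mul_le_mul_of_nonneg_left (hg π π' h1 h2 η hη h) (norm_nonneg _)
  | add x y hx hy =>
    obtain ⟨C, hC, hx⟩ := hx
    obtain ⟨C', hC', hy⟩ := hy
    refine ⟨C + C', add_nonneg hC hC', fun π π' h1 h2 η hη h => ?_⟩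
    rw [map_add, map_add, add_sub_add_comm, add_mul]
    exact (map_add_le_add _ _ _).trans (add_le_add (hx π π' h1 h2 η hη h) (hy π π' h1 h2 η hη h))

theorem lc_mem {G : Type*} (π : G → A) (c : G →₀ ℂ) :
    Finsupp.linearCombination ℂ π c ∈ Submodule.span ℂ (Set.range π) := by
  rw [← Finsupp.range_linearCombination]; exact ⟨c, rfl⟩

theorem exists_lc {G : Type*} {π : G → A} {y : A} (hy : y ∈ Submodule.span ℂ (Set.range π)) :
    ∃ c : G →₀ ℂ, Finsupp.linearCombination ℂ π c = y := by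
  rwa [← Finsupp.range_linearCombination] at hy

/-- `step` for an arbitrary element of the closed span -/
theorem step' {a b : α} (hab : a ≠ b) {π : FreeGroup (Option α) →* A} (hπ : Reg τ π) {y : A}
    (hy : y ∈ (Submodule.span ℂ (Set.range π)).topologicalClosure) {ε r : ℝ} (hε : 0 < ε)
    (hr : 0 < r) : ∃ π' : FreeGroup (Option α) →* A, Reg τ π' ∧ Gens π' π ∧
      (∀ i, τ.n (π' (FreeGroup.of (some i)) - π (FreeGroup.of (some i))) ≤ r) ∧
      ∃ z ∈ Submodule.span ℂ (Set.range (π'.comp inc)), τ.n (y - z) < ε := by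
  obtain ⟨y', hy', hd⟩ := Metric.mem_closure_iff.1 hy (ε / 2) (by positivity)
  obtain ⟨c, rfl⟩ := exists_lc hy'
  obtain ⟨C, hC, hc⟩ := lip_lc τ c
  set η : ℝ := min r (ε / (2 * (C + 1))) with hη
  have hη0 : 0 < η := lt_min hr (by positivity)
  obtain ⟨π', f, hπ', hg, h1, h2⟩ := step hab hπ hη0
  let φ : FreeGroup (Option α) →* FreeGroup α := FreeGroup.lift fun o => o.elim f FreeGroup.of
  have h3 := hc π ((π'.comp inc).comp φ) hπ.unit (fun g => hπ'.unit _) η hη0.le fun o => by
    rw [map_sub_rev]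
    cases o with
    | none => simpa [φ, uu] using h2
    | some i => simpa [φ] using h1 i
  refine ⟨π', hπ', hg, fun i => (h1 i).trans (min_le_left _ _),
    Finsupp.linearCombination ℂ ((π'.comp inc).comp φ) c, ?_, ?_⟩
  · refine Submodule.span_mono ?_ (lc_mem _ c)
    rintro _ ⟨g, rfl⟩
    exact ⟨φ g, rfl⟩
  · have h4 := τ.n_sub_le y (Finsupp.linearCombination ℂ π c)
      (Finsupp.linearCombination ℂ ((π'.comp inc).comp φ) c)
    have h5 := τ.n_le_norm (y - Finsupp.linearCombination ℂ π c)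
    rw [dist_eq_norm] at hd
    have h6 : C * η ≤ ε / 2 := by
      calc C * η ≤ (C + 1) * (ε / (2 * (C + 1))) :=
            mul_le_mul (by linarith) (min_le_right _ _) hη0.le (by linarith)
        _ = ε / 2 := by field_simp
    linarith

/-- the unitary group with the `‖·‖₂`-pseudometric -/
@[nolint unusedArguments]
def BU (_ : Tr A) : Type _ := {u : A // u ∈ unitary A}

noncomputable instance (τ : Tr A) : PseudoMetricSpace (BU τ) where
  dist u v := τ.n (u.1 - v.1)
  dist_self u := by simp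
  dist_comm u v := map_sub_rev _ _ _
  dist_triangle u v w := τ.n_sub_le _ _ _

theorem bu_complete (h : τ.IsW) : CompleteSpace (BU τ) := by
  refine Metric.complete_of_cauchySeq_tendsto fun u hu => ?_
  rw [Metric.cauchySeq_iff] at hu
  obtain ⟨x, -, hx⟩ := h.complete (fun k => (u k).1) 1
    (fun k => norm_le_one_of_unitary (u k).2) fun ε hε => hu ε hε
  have h1 : star x * x = 1 :=
    h.eq_of_lim (hx.star.mul hx (C := 1) fun k => by
      rw [norm_star]; exact norm_le_one_of_unitary (u k).2) (Tr.Lim.const 1) fun k => (u k).2.1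
  have h2 : x * star x = 1 :=
    h.eq_of_lim (hx.mul hx.star (C := 1) fun k => norm_le_one_of_unitary (u k).2)
      (Tr.Lim.const 1) fun k => (u k).2.2
  exact ⟨⟨x, h1, h2⟩, tendsto_iff_dist_tendsto_zero.2 hx⟩

/-- the representation defined by a tuple of unitaries -/
noncomputable def rep (v : α → BU τ) : FreeGroup α →* A :=
  (unitary A).subtype.comp (FreeGroup.lift fun i => (⟨(v i).1, (v i).2⟩ : unitary A))

theorem rep_of (v : α → BU τ) (i : α) : rep v (FreeGroup.of i) = (v i).1 := by simp [rep]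

theorem rep_unit (v : α → BU τ) (g : FreeGroup α) : rep v g ∈ unitary A := Subtype.prop _

theorem rep_close [Fintype α] (v w : α → BU τ) (i : α) :
    τ.n (rep v (FreeGroup.of i) - rep w (FreeGroup.of i)) ≤ dist v w := by
  rw [rep_of, rep_of]; exact dist_le_pi_dist v w i

theorem exists_gen [Finite α] (hτ : τ.IsW) {a b : α} (hab : a ≠ b)
    {π₀ : FreeGroup (Option α) →* A} (hπ₀ : Reg τ π₀) :
    ∃ ρ : FreeGroup α →* A, Reg τ ρ ∧
      ∀ g, ∀ ε > 0, ∃ y ∈ Submodule.span ℂ (Set.range ρ), τ.n (π₀ g - y) < ε := by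
  classical
  have := Fintype.ofFinite α
  have := bu_complete hτ
  have : Countable (FreeGroup (Option α)) := FreeGroup.toWord_injective.countable
  let S : Set (α → BU τ) := {v | ∃ π : FreeGroup (Option α) →* A, Reg τ π ∧ Gens π π₀ ∧
    rep v = π.comp inc}
  have hmk : ∀ π : FreeGroup (Option α) →* A, ∀ hπ : Reg τ π,
      rep (τ := τ) (fun i => ⟨π (FreeGroup.of (some i)), hπ.unit _⟩) = π.comp inc := by
    intro π hπ
    ext i
    simp [rep_of]
  let O : FreeGroup (Option α) × ℕ → Set (α → BU τ) := fun p =>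
    {v | ∃ y ∈ Submodule.span ℂ (Set.range (rep v)), τ.n (π₀ p.1 - y) < 1 / ((p.2 : ℝ) + 1)}
  have hO : ∀ p, IsOpen (O p) := by
    intro p
    rw [Metric.isOpen_iff]
    rintro v ⟨y, hy, hd⟩
    obtain ⟨c, rfl⟩ := exists_lc hy
    obtain ⟨C, hC, hc⟩ := lip_lc τ c
    set e : ℝ := 1 / ((p.2 : ℝ) + 1) - τ.n (π₀ p.1 - Finsupp.linearCombination ℂ (rep v) c) with he
    have he0 : 0 < e := sub_pos.2 hd
    refine ⟨e / (C + 1), by positivity, fun w hw => ⟨_, lc_mem _ c, ?_⟩⟩
    have h1 := hc (rep v) (rep w) (rep_unit v) (rep_unit w) _ dist_nonneg (rep_close v w)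
    have h2 := τ.n_sub_le (π₀ p.1) (Finsupp.linearCombination ℂ (rep v) c)
      (Finsupp.linearCombination ℂ (rep w) c)
    rw [Metric.mem_ball, dist_comm, lt_div_iff₀ (by positivity)] at hw
    have h3 : 0 ≤ dist v w := dist_nonneg
    nlinarith
  have hc : CompleteSpace (closure S) := isClosed_closure.completeSpace_coe
  have hd : Dense (⋂ p, (Subtype.val ⁻¹' O p : Set (closure S))) := by
    refine dense_iInter_of_isOpen (fun p => (hO p).preimage continuous_subtype_val) fun p => ?_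
    rw [Metric.dense_iff]
    intro v r hr
    obtain ⟨w, ⟨π, hπ, hg, hw⟩, hvw⟩ := Metric.mem_closure_iff.1 v.2 (r / 2) (by positivity)
    obtain ⟨π', hπ', hg', h1, h2⟩ := step' hab hπ (hg p.1)
      (show 0 < 1 / ((p.2 : ℝ) + 1) by positivity) (show 0 < r / 2 by positivity)
    let w' : α → BU τ := fun i => ⟨π' (FreeGroup.of (some i)), hπ'.unit _⟩
    refine ⟨⟨w', subset_closure ⟨π', hπ', hg'.trans hg, hmk π' hπ'⟩⟩, ?_, ?_⟩
    · have h3 : dist w' w ≤ r / 2 := by
        refine (dist_pi_le_iff (by positivity)).2 fun i => ?_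
        have := h1 i
        rw [← inc_of (α := α) i, ← MonoidHom.comp_apply π inc, ← hw, rep_of, inc_of] at this
        exact this
      have h4 := dist_triangle_right w' v.1 w
      rw [Metric.mem_ball, Subtype.dist_eq]
      change dist w' v.1 < r
      linarith
    · change ∃ y ∈ Submodule.span ℂ (Set.range (rep w')), _
      rw [hmk π' hπ']
      exact h2
  have hne : Nonempty (closure S) :=
    ⟨⟨_, subset_closure ⟨π₀, hπ₀, Gens.refl _, hmk π₀ hπ₀⟩⟩⟩
  obtain ⟨v, hv⟩ := hd.nonempty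
  refine ⟨rep v.1, ⟨star_of_unitary (rep_unit _), fun g hg => ?_⟩, fun g ε hε => ?_⟩
  · obtain ⟨C, hC, hlip⟩ := lip_word τ g
    refine norm_le_zero_iff.1 (le_of_forall_pos_le_add fun e he => ?_)
    obtain ⟨w, ⟨π, hπ, -, hw⟩, hvw⟩ := Metric.mem_closure_iff.1 v.2 (e / (C + 1)) (by positivity)
    have h1 := hlip (rep v.1) (rep w) (rep_unit _) (rep_unit _) _ dist_nonneg (rep_close _ _)
    have h2 : τ (rep w g) = 0 := by rw [hw]; exact (hπ.comp inc_injective).tr g hg
    have h3 := τ.norm_le_n (rep v.1 g - rep w g)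
    rw [map_sub, h2, sub_zero] at h3
    rw [lt_div_iff₀ (by positivity)] at hvw
    have h4 : 0 ≤ dist v.1 w := dist_nonneg
    nlinarith
  · obtain ⟨m, hm⟩ := exists_nat_one_div_lt hε
    obtain ⟨y, hy, h⟩ := Set.mem_iInter.1 hv (g, m)
    exact ⟨y, hy, h.trans hm⟩

end Crest.Agent.R134
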