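import Crest.Agent.R95.Basic

/-!
# rid 134 (isomorphism of free group factors): basic definitions

`RG G` is the real group algebra, `sg g` a group element in it, `st` the involution `g ↦ g⁻¹`,
`n1`, `n2` the ℓ¹ and ℓ² norms (as `Seminorm`s), `ev π` the linear extension of a representation
`π : G →* A` in a C⋆-algebra.  `Reg τ π` says that `π` is unitary with `τ (π g) = δ_{g,1}`.
`Der δ` says that `δ` is a trace preserving analytic ⋆-derivation of `RG G`.
Everything in this file is proved.
-/

set_option autoImplicit false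
set_option linter.unusedSectionVars false

open Crest.Agent.R95

namespace Crest.Agent.R134

/-- the real group algebra -/
abbrev RG (G : Type*) := MonoidAlgebra ℝ G

section GA
variable {G : Type*} [Group G]

/-- a group element inside the group algebra -/
noncomputable def sg : G →* RG G := MonoidAlgebra.of ℝ G

theorem sg_eq (g : G) : sg g = MonoidAlgebra.single g (1 : ℝ) := rfl

theorem single_eq (g : G) (c : ℝ) : MonoidAlgebra.single g c = c • sg g := by
  simp [sg_eq]

theorem sg_mul_inv (g : G) : sg g * sg g⁻¹ = 1 := by rw [← map_mul, mul_inv_cancel, map_one]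
theorem sg_inv_mul (g : G) : sg g⁻¹ * sg g = 1 := by rw [← map_mul, inv_mul_cancel, map_one]

theorem rg_ext {x y : RG G} (h : ∀ g, x.coeff g = y.coeff g) : x = y :=
  MonoidAlgebra.coeff_injective (Finsupp.ext h)

/-- induction on the group algebra -/
@[elab_as_elim]
theorem rg_induction {p : RG G → Prop} (x : RG G) (zero : p 0)
    (add : ∀ x y, p x → p y → p (x + y)) (smul_sg : ∀ (c : ℝ) (g : G), p (c • sg g)) : p x := by
  induction x using MonoidAlgebra.induction_linear with
  | zero => exact zero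
  | add a b ha hb => exact add a b ha hb
  | single g c => rw [single_eq]; exact smul_sg c g

theorem eq_sum_sg (x : RG G) : x = ∑ g ∈ x.coeff.support, x.coeff g • sg g := by
  conv_lhs => rw [← MonoidAlgebra.sum_coeff_single x, Finsupp.sum]
  simp only [single_eq]

/-- two linear maps which agree on group elements agree -/
theorem lin_ext {V : Type*} [AddCommGroup V] [Module ℝ V] {S T : RG G →ₗ[ℝ] V}
    (h : ∀ g, S (sg g) = T (sg g)) : S = T := by
  refine LinearMap.ext fun x => ?_
  induction x using rg_induction with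
  | zero => simp
  | add x y hx hy => rw [map_add, map_add, hx, hy]
  | smul_sg c g => rw [map_smul, map_smul, h]

/-- the linear map on the group algebra with prescribed values on group elements -/
noncomputable def linOf {V : Type*} [AddCommGroup V] [Module ℝ V] (φ : G → V) : RG G →ₗ[ℝ] V where
  toFun x := Finsupp.linearCombination ℝ φ x.coeff
  map_add' x y := by rw [MonoidAlgebra.coeff_add, map_add]
  map_smul' c x := by rw [MonoidAlgebra.coeff_smul, map_smul]; rfl

@[simp] theorem linOf_sg {V : Type*} [AddCommGroup V] [Module ℝ V] (φ : G → V) (g : G) :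
    linOf φ (sg g) = φ g := by
  simp [linOf, sg_eq]

theorem linOf_apply {V : Type*} [AddCommGroup V] [Module ℝ V] (φ : G → V) (x : RG G) :
    linOf φ x = ∑ g ∈ x.coeff.support, x.coeff g • φ g := rfl

theorem coeff_sg [DecidableEq G] (g h : G) : (sg g).coeff h = if g = h then 1 else 0 := by
  simp [sg_eq, Finsupp.single_apply]

theorem coeff_sg_self (g : G) : (sg g).coeff g = 1 := by simp [sg_eq]

theorem coeff_sg_ne {g h : G} (hgh : g ≠ h) : (sg g).coeff h = 0 := by
  classical rw [coeff_sg, if_neg hgh]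

theorem coeff_mul_sg (x : RG G) (g h : G) : (x * sg g).coeff h = x.coeff (h * g⁻¹) := by
  simp [sg_eq, MonoidAlgebra.coeff_mul_single_apply]

theorem coeff_sg_mul (x : RG G) (g h : G) : (sg g * x).coeff h = x.coeff (g⁻¹ * h) := by
  simp [sg_eq, MonoidAlgebra.coeff_single_mul_apply]

/-- the trace property of the coefficient of `1` -/
theorem coeff_one_comm (x y : RG G) : (x * y).coeff 1 = (y * x).coeff 1 := by
  rw [MonoidAlgebra.coeff_mul_apply_left, MonoidAlgebra.coeff_mul_apply_right]
  simp [mul_comm]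

/-- the involution -/
noncomputable def st : RG G →ₗ[ℝ] RG G := linOf fun g => sg g⁻¹

@[simp] theorem st_sg (g : G) : st (sg g) = sg g⁻¹ := linOf_sg _ _

@[simp] theorem st_one : st (1 : RG G) = 1 := by
  rw [← map_one (sg (G := G)), st_sg, inv_one]

theorem st_mul (x y : RG G) : st (x * y) = st y * st x := by
  induction x using rg_induction with
  | zero => simp
  | add a b ha hb => rw [add_mul, map_add, map_add, mul_add, ha, hb]
  | smul_sg c g =>
    induction y using rg_induction with
    | zero => simp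
    | add a b ha hb => rw [mul_add, map_add, map_add, add_mul, ha, hb]
    | smul_sg d h =>
      simp only [smul_mul_smul_comm, map_smul, st_sg, ← map_mul, mul_inv_rev, mul_comm c d]

@[simp] theorem st_st (x : RG G) : st (st x) = x := by
  induction x using rg_induction with
  | zero => simp
  | add a b ha hb => rw [map_add, map_add, ha, hb]
  | smul_sg c g => simp

theorem coeff_st (x : RG G) (g : G) : (st x).coeff g = x.coeff g⁻¹ := by
  classical
  induction x using rg_induction with
  | zero => simp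
  | add a b ha hb => simp [ha, hb]
  | smul_sg c h => simp [coeff_sg, eq_comm, eq_inv_iff_mul_eq_one, mul_eq_one_comm]

/-- the ℓ² inner product -/
noncomputable def ip (x y : RG G) : ℝ := (st x * y).coeff 1

theorem ip_eq (x y : RG G) : ip x y = ∑ g ∈ y.coeff.support, x.coeff g * y.coeff g := by
  rw [ip, MonoidAlgebra.coeff_mul_apply_right, Finsupp.sum]
  simp [coeff_st]

theorem ip_eq_sum (x y : RG G) {s : Finset G} (hs : y.coeff.support ⊆ s) :
    ip x y = ∑ g ∈ s, x.coeff g * y.coeff g := by
  rw [ip_eq]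
  refine Finset.sum_subset hs fun g _ hg => ?_
  rw [Finsupp.notMem_support_iff.1 hg, mul_zero]

theorem ip_comm (x y : RG G) : ip x y = ip y x := by
  have := coeff_st (st x * y) 1
  rw [st_mul, st_st, inv_one] at this
  exact this.symm

/-- disjoint supports -/
theorem ip_eq_zero {x y : RG G} (h : ∀ g, x.coeff g ≠ 0 → y.coeff g = 0) : ip x y = 0 := by
  rw [ip_eq]
  refine Finset.sum_eq_zero fun g _ => ?_
  by_cases hx : x.coeff g = 0
  · rw [hx, zero_mul]
  · rw [h g hx, mul_zero]

/-- `RG G` with the ℓ² inner product (a type synonym) -/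
def L2 (G : Type*) : Type _ := RG G

noncomputable instance : AddCommGroup (L2 G) := inferInstanceAs (AddCommGroup (RG G))
noncomputable instance : Module ℝ (L2 G) := inferInstanceAs (Module ℝ (RG G))

/-- identity map -/
noncomputable def toL2 : RG G ≃ₗ[ℝ] L2 G := LinearEquiv.refl ℝ _

/-- the pre-inner product -/
noncomputable abbrev core (G : Type*) [Group G] : PreInnerProductSpace.Core ℝ (L2 G) where
  inner a b := ip (toL2.symm a) (toL2.symm b)
  conj_inner_symm a b := by simpa using ip_comm _ _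
  re_inner_nonneg a := by
    simp only [RCLike.re_to_real, ip_eq]
    exact Finset.sum_nonneg fun _ _ => mul_self_nonneg _
  add_left _ _ _ := by simp [ip, add_mul]
  smul_left a b r := by simp [ip]

noncomputable instance : SeminormedAddCommGroup (L2 G) :=
  InnerProductSpace.Core.toSeminormedAddCommGroup (c := core G)
noncomputable instance : InnerProductSpace ℝ (L2 G) := InnerProductSpace.ofCore (core G)

/-- the ℓ² norm; use the `Seminorm` API (`map_add_le_add`, `map_smul_eq_mul`, `map_neg_eq_map`,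
`map_sub_rev`, `apply_nonneg`, `map_sub_le_add`, …). -/
noncomputable def n2 : Seminorm ℝ (RG G) := (normSeminorm ℝ (L2 G)).comp toL2.toLinearMap

theorem n2_nonneg (x : RG G) : 0 ≤ n2 x := apply_nonneg _ _

theorem n2_sq (x : RG G) : n2 x ^ 2 = ip x x := by
  change ‖toL2 x‖ ^ 2 = _
  rw [← real_inner_self_eq_norm_sq]; rfl

theorem n2_add_sq (x y : RG G) : n2 (x + y) ^ 2 = n2 x ^ 2 + 2 * ip x y + n2 y ^ 2 := by
  change ‖toL2 (x + y)‖ ^ 2 = ‖toL2 x‖ ^ 2 + _ + ‖toL2 y‖ ^ 2
  rw [map_add, norm_add_sq_real]; rfl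

theorem n2_sub_sq (x y : RG G) : n2 (x - y) ^ 2 = n2 x ^ 2 - 2 * ip x y + n2 y ^ 2 := by
  change ‖toL2 (x - y)‖ ^ 2 = ‖toL2 x‖ ^ 2 - _ + ‖toL2 y‖ ^ 2
  rw [map_sub, norm_sub_sq_real]; rfl

theorem ip_add_left (x y z : RG G) : ip (x + y) z = ip x z + ip y z := by simp [ip, add_mul]
theorem ip_add_right (x y z : RG G) : ip x (y + z) = ip x y + ip x z := by simp [ip, mul_add]
theorem ip_smul_left (c : ℝ) (x y : RG G) : ip (c • x) y = c * ip x y := by simp [ip]
theorem ip_smul_right (c : ℝ) (x y : RG G) : ip x (c • y) = c * ip x y := by simp [ip]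
theorem ip_sum_left {ι : Type*} (s : Finset ι) (x : ι → RG G) (y : RG G) :
    ip (∑ i ∈ s, x i) y = ∑ i ∈ s, ip (x i) y := by simp [ip, Finset.sum_mul]
theorem ip_sum_right {ι : Type*} (s : Finset ι) (x : RG G) (y : ι → RG G) :
    ip x (∑ i ∈ s, y i) = ∑ i ∈ s, ip x (y i) := by simp [ip, Finset.mul_sum]

/-- Pythagoras -/
theorem n2_sum_sq {ι : Type*} (s : Finset ι) (x : ι → RG G)
    (h : ∀ i ∈ s, ∀ j ∈ s, i ≠ j → ip (x i) (x j) = 0) :
    n2 (∑ i ∈ s, x i) ^ 2 = ∑ i ∈ s, n2 (x i) ^ 2 := by
  rw [n2_sq, ip_sum_left]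
  refine Finset.sum_congr rfl fun i hi => ?_
  rw [ip_sum_right, Finset.sum_eq_single i (fun j hj hji => h i hi j hj hji.symm)
    (fun h' => absurd hi h'), n2_sq]

theorem n2_sum_le {ι : Type*} (s : Finset ι) (x : ι → RG G) :
    n2 (∑ i ∈ s, x i) ≤ ∑ i ∈ s, n2 (x i) :=
  Finset.le_sum_of_subadditive n2 (map_zero _).le (map_add_le_add _) s x

theorem ip_sg_mul (g : G) (x y : RG G) : ip (sg g * x) (sg g * y) = ip x y := by
  rw [ip, ip, st_mul, st_sg, mul_assoc, ← mul_assoc (sg g⁻¹), sg_inv_mul, one_mul]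

theorem ip_mul_sg (g : G) (x y : RG G) : ip (x * sg g) (y * sg g) = ip x y := by
  rw [ip, ip, st_mul, st_sg, mul_assoc, coeff_one_comm, mul_assoc, mul_assoc, sg_mul_inv, mul_one]

theorem n2_sg_mul (g : G) (x : RG G) : n2 (sg g * x) = n2 x := by
  rw [← sq_eq_sq₀ (n2_nonneg _) (n2_nonneg _), n2_sq, n2_sq, ip_sg_mul]

theorem n2_mul_sg (g : G) (x : RG G) : n2 (x * sg g) = n2 x := by
  rw [← sq_eq_sq₀ (n2_nonneg _) (n2_nonneg _), n2_sq, n2_sq, ip_mul_sg]

@[simp] theorem n2_one : n2 (1 : RG G) = 1 := by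
  rw [← sq_eq_sq₀ (n2_nonneg _) zero_le_one, n2_sq, ip]; simp

@[simp] theorem n2_sg (g : G) : n2 (sg g) = 1 := by
  simpa using n2_sg_mul g 1

theorem n2_sq_eq (x : RG G) : n2 x ^ 2 = ∑ g ∈ x.coeff.support, x.coeff g ^ 2 := by
  rw [n2_sq, ip_eq]; simp only [sq]

/-- the ℓ² norm of `∑ x_g φ(g)` for injective `φ` -/
theorem n2_linOf_sg {Γ : Type*} [Group Γ] {φ : Γ → G} (hφ : Function.Injective φ) (x : RG Γ) :
    n2 (linOf (fun g => sg (φ g)) x) = n2 x := by
  rw [← sq_eq_sq₀ (n2_nonneg _) (n2_nonneg _), linOf_apply, n2_sum_sq, n2_sq_eq]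
  · simp [map_smul_eq_mul]
  · intro i _ j _ hij
    rw [ip_smul_left, ip_smul_right, ip_eq_zero, mul_zero, mul_zero]
    intro g hg
    refine coeff_sg_ne fun e => hg (coeff_sg_ne fun e' => hij (hφ (e'.trans e.symm)))

/-- the ℓ¹ norm -/
noncomputable def n1 : Seminorm ℝ (RG G) :=
  Seminorm.of (fun x => ∑ g ∈ x.coeff.support, |x.coeff g|)
    (fun x y => by
      classical
      have h : ∀ z : RG G, z.coeff.support ⊆ x.coeff.support ∪ y.coeff.support →
          ∑ g ∈ z.coeff.support, |z.coeff g| =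
            ∑ g ∈ x.coeff.support ∪ y.coeff.support, |z.coeff g| := fun z hz =>
        Finset.sum_subset hz fun g _ hg => by rw [Finsupp.notMem_support_iff.1 hg, abs_zero]
      rw [h (x + y) Finsupp.support_add, h x Finset.subset_union_left, h y Finset.subset_union_right,
        ← Finset.sum_add_distrib]
      exact Finset.sum_le_sum fun g _ => abs_add_le _ _)
    (fun c x => by
      by_cases hc : c = 0
      · simp [hc]
      · rw [MonoidAlgebra.coeff_smul, Finsupp.support_smul_eq hc, Finset.mul_sum]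
        simp [abs_mul])

theorem n1_eq (x : RG G) : n1 x = ∑ g ∈ x.coeff.support, |x.coeff g| := rfl

theorem n1_nonneg (x : RG G) : 0 ≤ n1 x := apply_nonneg _ _

@[simp] theorem n1_sg (g : G) : n1 (sg g) = 1 := by
  simp [n1_eq, sg_eq]

@[simp] theorem n1_one : n1 (1 : RG G) = 1 := by rw [← map_one (sg (G := G)), n1_sg]

theorem n1_sum_le {ι : Type*} (s : Finset ι) (x : ι → RG G) :
    n1 (∑ i ∈ s, x i) ≤ ∑ i ∈ s, n1 (x i) :=
  Finset.le_sum_of_subadditive n1 (map_zero _).le (map_add_le_add _) s x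

/-- a linear map is bounded for `n1` by its values on the support -/
theorem le_mul_n1 {V : Type*} [AddCommGroup V] [Module ℝ V] (p : Seminorm ℝ V)
    (T : RG G →ₗ[ℝ] V) (x : RG G) {C : ℝ} (h : ∀ g ∈ x.coeff.support, p (T (sg g)) ≤ C) :
    p (T x) ≤ C * n1 x := by
  conv_lhs => rw [eq_sum_sg x, map_sum]
  refine (Finset.le_sum_of_subadditive p (map_zero _).le (map_add_le_add _) _ _).trans ?_
  rw [n1_eq, Finset.mul_sum]
  refine Finset.sum_le_sum fun g hg => ?_
  rw [map_smul, map_smul_eq_mul, Real.norm_eq_abs, mul_comm]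
  exact mul_le_mul_of_nonneg_right (h g hg) (abs_nonneg _)

theorem n1_sg_mul (g : G) (x : RG G) : n1 (sg g * x) ≤ n1 x := by
  simpa using le_mul_n1 n1 (LinearMap.mulLeft ℝ (sg g)) x (C := 1) fun h _ => by
    simp [← map_mul]

theorem n1_mul_le (x y : RG G) : n1 (x * y) ≤ n1 x * n1 y := by
  simpa [mul_comm] using le_mul_n1 n1 (LinearMap.mulRight ℝ y) x (C := n1 y) fun h _ =>
    n1_sg_mul h y

/-- A trace preserving analytic ⋆-derivation of the group algebra. -/
structure Der (δ : RG G →ₗ[ℝ] RG G) : Prop where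
  mul : ∀ x y, δ (x * y) = δ x * y + x * δ y
  st : ∀ x, δ (st x) = st (δ x)
  tr : ∀ x, (δ x).coeff 1 = 0
  grow : ∃ K : ℝ, 0 < K ∧ ∀ x, ∃ C : ℝ, ∀ k : ℕ, n1 ((δ ^ k) x) ≤ C * K ^ k * k.factorial

theorem Der.one {δ : RG G →ₗ[ℝ] RG G} (h : Der δ) : δ 1 = 0 := by
  simpa using h.mul 1 1

end GA

section Rep
variable {G A : Type*} [Group G] [CStarAlgebra A]

/-- linear extension of a representation -/
noncomputable def ev (π : G →* A) : RG G →ₐ[ℝ] A := MonoidAlgebra.lift ℝ A G π

@[simp] theorem ev_sg (π : G →* A) (g : G) : ev π (sg g) = π g := MonoidAlgebra.lift_of π g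

theorem ev_mem_span (π : G →* A) (x : RG G) : ev π x ∈ Submodule.span ℂ (Set.range π) := by
  induction x using rg_induction with
  | zero => simp
  | add a b ha hb => rw [map_add]; exact add_mem ha hb
  | smul_sg c g =>
    rw [map_smul, ev_sg, ← Complex.coe_smul]
    exact Submodule.smul_mem _ _ (Submodule.subset_span ⟨g, rfl⟩)

theorem tr_real_smul (τ : Tr A) (c : ℝ) (a : A) : τ (c • a) = c * τ a := by
  rw [← Complex.coe_smul, map_smul, smul_eq_mul]

theorem n_real_smul (τ : Tr A) (c : ℝ) (a : A) : τ.n (c • a) = |c| * τ.n a := by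
  rw [← Complex.coe_smul, map_smul_eq_mul, Complex.norm_real, Real.norm_eq_abs]

/-- a unitary representation whose character is the regular character -/
structure Reg (τ : Tr A) (π : G →* A) : Prop where
  star : ∀ g, star (π g) = π g⁻¹
  tr : ∀ g, g ≠ 1 → τ (π g) = 0

variable {τ : Tr A} {π : G →* A}

theorem Reg.unit (h : Reg τ π) (g : G) : π g ∈ unitary A :=
  ⟨by rw [h.star, ← map_mul, inv_mul_cancel, map_one],
    by rw [h.star, ← map_mul, mul_inv_cancel, map_one]⟩

theorem Reg.norm_le (h : Reg τ π) (g : G) : ‖π g‖ ≤ 1 := norm_le_one_of_unitary (h.unit g)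

theorem Reg.star_ev (h : Reg τ π) (x : RG G) : Star.star (ev π x) = ev π (st x) := by
  induction x using rg_induction with
  | zero => simp
  | add a b ha hb => simp only [map_add, star_add, ha, hb]
  | smul_sg c g => simp [h.star]

theorem Reg.tr_ev (h : Reg τ π) (x : RG G) : τ (ev π x) = (x.coeff 1 : ℝ) := by
  induction x using rg_induction with
  | zero => simp
  | add a b ha hb => simp only [map_add, ha, hb]; simp
  | smul_sg c g =>
    rw [map_smul, ev_sg, tr_real_smul]
    by_cases hg : g = 1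
    · subst hg; simp
    · simp [h.tr g hg, coeff_sg_ne hg]

theorem Reg.n_ev (h : Reg τ π) (x : RG G) : τ.n (ev π x) = n2 x := by
  rw [← sq_eq_sq₀ (τ.n_nonneg _) (n2_nonneg _), Tr.n_sq, h.star_ev, ← map_mul, h.tr_ev, n2_sq]
  rfl

theorem Reg.norm_ev_le (h : Reg τ π) (x : RG G) : ‖ev π x‖ ≤ n1 x := by
  simpa using le_mul_n1 (normSeminorm ℝ A) (ev π).toLinearMap x (C := 1) fun g _ => by
    simpa using h.norm_le g

theorem Reg.comp {Γ : Type*} [Group Γ] (h : Reg τ π) {φ : Γ →* G} (hφ : Function.Injective φ) :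
    Reg τ (π.comp φ) :=
  ⟨fun g => by simp [h.star], fun g hg => h.tr _ fun e => hg (hφ (e.trans (map_one φ).symm))⟩

/-- `π'` generates at least as much as `π` (operator norm closure of the span) -/
def Gens {Γ : Type*} [Group Γ] (π' : Γ →* A) (π : G →* A) : Prop :=
  ∀ g, π g ∈ (Submodule.span ℂ (Set.range π')).topologicalClosure

theorem Gens.refl (π : G →* A) : Gens π π := fun g =>
  Submodule.le_topologicalClosure _ (Submodule.subset_span ⟨g, rfl⟩)

theorem Gens.trans {Γ Λ : Type*} [Group Γ] [Group Λ] {π₁ : Γ →* A} {π₂ : Λ →* A} {π₃ : G →* A}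
    (h₁ : Gens π₁ π₂) (h₂ : Gens π₂ π₃) : Gens π₁ π₃ := fun g =>
  Submodule.topologicalClosure_minimal _
    (Submodule.span_le.2 (by rintro _ ⟨g, rfl⟩; exact h₁ g))
    (Submodule.isClosed_topologicalClosure _) (h₂ g)

end Rep

section Free
variable {α : Type*}

/-- the inclusion of `F(α)` in `F(α) * ℤ` -/
def inc : FreeGroup α →* FreeGroup (Option α) := FreeGroup.map some

/-- the extra generator -/
def uu (α : Type*) : FreeGroup (Option α) := FreeGroup.of none

@[simp] theorem inc_of (i : α) : inc (FreeGroup.of i) = FreeGroup.of (some i) := FreeGroup.map.of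

theorem inc_injective : Function.Injective (inc (α := α)) :=
  FreeGroup.map_injective (Option.some_injective α)

/-- `D` is the (right) Fox derivative with respect to the generator `a` -/
structure Fox (a : α) (D : FreeGroup α → RG (FreeGroup α)) : Prop where
  mul : ∀ g h, D (g * h) = D g * sg h + D h
  self : D (FreeGroup.of a) = 1
  other : ∀ i, i ≠ a → D (FreeGroup.of i) = 0

/-- the skew trigonometric polynomial `∑ c_j (g^j - g^{-j})` -/
noncomputable def psi {G : Type*} [Group G] (K : ℕ) (c : ℕ → ℝ) (g : G) : RG G :=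
  ∑ j ∈ Finset.range K, c j • (sg (g ^ j) - sg (g ^ j)⁻¹)

theorem st_psi {G : Type*} [Group G] (K : ℕ) (c : ℕ → ℝ) (g : G) : st (psi K c g) = -psi K c g := by
  simp only [psi, map_sum, map_smul, map_sub, st_sg, inv_inv, ← Finset.sum_neg_distrib, ← smul_neg,
    neg_sub]

end Free

end Crest.Agent.R134
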