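import Crest.Agent.R134.Grow

/-! # rid 134: the trace preserving derivation (task `Der`) -/

set_option autoImplicit false

namespace Crest.Agent.R134

variable {α : Type*}

/-- Conjugates of `u^j` by distinct elements of `F(α)` are distinct.  Proof. Let `F(α) * ℤ` act on
`FreeGroup α × ℤ`: `of (some i)` by `(g, k) ↦ (of i * g, k)`, `of none` by
`(g, k) ↦ (g, if g = 1 then k + 1 else k)` (`FreeGroup.lift` into `Equiv.Perm _`).  Then `inc γ` acts by
`(g, k) ↦ (γ * g, k)`, `uu ^ j` by `(g, k) ↦ (g, if g = 1 then k + j else k)`; evaluate both sides at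
`(γ⁻¹, 0)`. -/
theorem conj_injective {j : ℕ} (hj : j ≠ 0) :
    Function.Injective fun γ : FreeGroup α => (inc γ)⁻¹ * uu α ^ j * inc γ := by
  classical
  let ρ : FreeGroup α →* Equiv.Perm (FreeGroup α × ℤ) :=
    MonoidHom.mk' (fun γ => (Equiv.mulLeft γ).prodCongr (Equiv.refl ℤ)) fun a b => by
      ext p <;> simp [mul_assoc]
  let T : Equiv.Perm (FreeGroup α × ℤ) :=
    Equiv.prodCongrRight fun g => Equiv.addRight (if g = 1 then (1 : ℤ) else 0)
  let φ : FreeGroup (Option α) →* Equiv.Perm (FreeGroup α × ℤ) :=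
    FreeGroup.lift fun o => o.elim T fun i => ρ (FreeGroup.of i)
  have h1 : φ.comp inc = ρ := FreeGroup.ext_hom _ _ fun i => by simp [φ]
  have h1' : ∀ γ, φ (inc γ) = ρ γ := fun γ => DFunLike.congr_fun h1 γ
  have h2 : φ (uu α) = T := by simp [φ, uu]
  have h3 : ∀ (n : ℕ) (g : FreeGroup α) (k : ℤ),
      (T ^ n) (g, k) = (g, k + n * if g = 1 then (1 : ℤ) else 0) := by
    intro n g k
    induction n with
    | zero => simp
    | succ n ih =>
      rw [pow_succ', Equiv.Perm.mul_apply, ih]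
      simp only [T, Equiv.prodCongrRight_apply, Equiv.coe_addRight]
      push_cast
      rw [add_mul, one_mul, add_assoc]
  have h4 : ∀ γ g k, ρ γ (g, k) = (γ * g, k) := fun _ _ _ => rfl
  intro γ γ' h
  have := congrArg (fun w => (φ w (γ⁻¹, 0)).2) h
  simp only [map_mul, ← map_inv, map_pow, h1', h2, Equiv.Perm.mul_apply, h4, h3, mul_inv_cancel,
    if_true] at this
  by_contra hne
  have hne' : γ' * γ⁻¹ ≠ 1 := fun e => hne (mul_inv_eq_one.1 e).symm
  simp [hne', hj] at this

/-- `act ψ y = ∑ y_γ γ⁻¹ ψ γ` -/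
noncomputable def act (ψ : RG (FreeGroup (Option α))) :
    RG (FreeGroup α) →ₗ[ℝ] RG (FreeGroup (Option α)) :=
  linOf fun γ => sg (inc γ)⁻¹ * ψ * sg (inc γ)

/-- Proof. `act (psi K c u) y = ∑ j, c j • (linOf (γ ↦ sg (γ⁻¹ u^j γ)) y - linOf (γ ↦ sg (γ⁻¹ u^j γ)⁻¹) y)`
(`lin_ext`); the term `j = 0` vanishes, the others have `n2 ≤ |c j| * 2 * n2 y` by `n2_linOf_sg` and
`conj_injective`. -/
theorem n2_act_le (K : ℕ) (c : ℕ → ℝ) (y : RG (FreeGroup α)) :
    n2 (act (psi K c (uu α)) y) ≤ (2 * ∑ j ∈ Finset.range K, |c j|) * n2 y := by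
  have e : act (psi K c (uu α)) = ∑ j ∈ Finset.range K, c j •
      ((linOf fun γ : FreeGroup α => sg ((inc γ)⁻¹ * uu α ^ j * inc γ)) -
        linOf fun γ : FreeGroup α => sg ((inc γ)⁻¹ * uu α ^ j * inc γ)⁻¹) := by
    refine lin_ext fun γ => ?_
    simp only [act, linOf_sg, psi, Finset.mul_sum, Finset.sum_mul, LinearMap.sum_apply,
      LinearMap.smul_apply, LinearMap.sub_apply, mul_smul_comm, smul_mul_assoc, mul_sub, sub_mul,
      ← map_mul, mul_inv_rev, inv_inv, mul_assoc]
  rw [e, LinearMap.sum_apply, Finset.mul_sum, Finset.sum_mul]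
  refine (n2_sum_le _ _).trans (Finset.sum_le_sum fun j _ => ?_)
  rw [LinearMap.smul_apply, map_smul_eq_mul, Real.norm_eq_abs, LinearMap.sub_apply]
  have h0 := n2_nonneg y
  by_cases hj : j = 0
  · subst hj
    simp only [pow_zero, mul_one, inv_mul_cancel, inv_one, sub_self, map_zero, mul_zero]
    positivity
  · have h1 := n2_linOf_sg (conj_injective (α := α) hj) y
    have h2 := n2_linOf_sg (inv_injective.comp (conj_injective (α := α) hj)) y
    have h3 := map_sub_le_add n2
      (linOf (fun γ : FreeGroup α => sg ((inc γ)⁻¹ * uu α ^ j * inc γ)) y)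
      (linOf (fun γ : FreeGroup α => sg ((inc γ)⁻¹ * uu α ^ j * inc γ)⁻¹) y)
    simp only [Function.comp_apply] at h2
    rw [h1, h2] at h3
    nlinarith [mul_le_mul_of_nonneg_left h3 (abs_nonneg (c j))]

/-- a derivation along `s` which vanishes on the generators vanishes -/
theorem der_zero {β R : Type*} [Ring R] (s : FreeGroup β →* R) (F : FreeGroup β → R)
    (hF : ∀ g h, F (g * h) = F g * s h + s g * F h) (h0 : ∀ i, F (FreeGroup.of i) = 0) (g) :
    F g = 0 := by
  have h1 : F 1 = 0 := by simpa using hF 1 1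
  induction g using FreeGroup.induction_on with
  | C1 => exact h1
  | of i => exact h0 i
  | inv_of i hi =>
    have := hF (FreeGroup.of i) (FreeGroup.of i)⁻¹
    rw [mul_inv_cancel, h1, hi, zero_mul, zero_add] at this
    calc _ = s (FreeGroup.of i)⁻¹ * (s (FreeGroup.of i) * F (FreeGroup.of i)⁻¹) := by
          rw [← mul_assoc, ← map_mul, inv_mul_cancel, map_one, one_mul]
      _ = 0 := by rw [← this, mul_zero]
  | mul a b ha hb => rw [hF, ha, hb, zero_mul, mul_zero, add_zero]

theorem der_inv {G : Type*} [Group G] {δ : RG G →ₗ[ℝ] RG G}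
    (hmul : ∀ x y, δ (x * y) = δ x * y + x * δ y) (g : G) :
    δ (sg g⁻¹) = -(sg g⁻¹ * δ (sg g) * sg g⁻¹) := by
  have h1 : δ 1 = 0 := by simpa using hmul 1 1
  have := hmul (sg g⁻¹) (sg g)
  rw [sg_inv_mul, h1, eq_comm, add_eq_zero_iff_eq_neg] at this
  rw [← neg_mul, ← this, mul_assoc, sg_mul_inv, mul_one]

theorem der_act_mul (ψ : RG (FreeGroup (Option α))) (y : RG (FreeGroup α)) (γ : FreeGroup α) :
    act ψ (y * sg γ) = sg (inc γ)⁻¹ * act ψ y * sg (inc γ) := by
  induction y using rg_induction with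
  | zero => simp
  | add a b ha hb => simp only [add_mul, mul_add, map_add, ha, hb]
  | smul_sg c g =>
    simp only [smul_mul_assoc, mul_smul_comm, map_smul, ← map_mul sg g, act, linOf_sg]
    simp only [map_mul, mul_inv_rev, mul_assoc]

theorem der_act_one (ψ : RG (FreeGroup (Option α))) : act ψ 1 = ψ := by
  rw [← map_one (sg (G := FreeGroup α)), act, linOf_sg]
  simp

theorem der_st_act {ψ : RG (FreeGroup (Option α))} (hψ : st ψ = -ψ) (y : RG (FreeGroup α)) :
    st (act ψ y) = -act ψ y := by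
  induction y using rg_induction with
  | zero => simp
  | add a b ha hb => simp only [map_add, ha, hb, neg_add]
  | smul_sg c g => simp [act, st_mul, hψ, mul_assoc]

/-- the span of the conjugates of the powers of `u` -/
noncomputable def derW {G : Type*} [Group G] (u : G) : Submodule ℝ (RG G) :=
  Submodule.span ℝ {w | ∃ (γ : G) (m : ℤ), w = sg (γ⁻¹ * u ^ m * γ)}

theorem derW_conj {G : Type*} [Group G] {u : G} {w : RG G} (hw : w ∈ derW u) (g : G) :
    sg g⁻¹ * w * sg g ∈ derW u := by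
  induction hw using Submodule.span_induction with
  | mem w hw =>
    obtain ⟨γ, m, rfl⟩ := hw
    exact Submodule.subset_span ⟨γ * g, m, by simp only [← map_mul, mul_inv_rev, mul_assoc]⟩
  | zero => simp
  | add a b _ _ ha hb => rw [mul_add, add_mul]; exact add_mem ha hb
  | smul c a _ ha => rw [mul_smul_comm, smul_mul_assoc]; exact Submodule.smul_mem _ _ ha

theorem derW_coeff {G : Type*} [Group G] {u : G} {w : RG G} (hw : w ∈ derW u) {g : G}
    (hg : ∀ (γ : G) (m : ℤ), γ⁻¹ * u ^ m * γ ≠ g) : w.coeff g = 0 := by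
  induction hw using Submodule.span_induction with
  | mem w hw =>
    obtain ⟨γ, m, rfl⟩ := hw
    exact coeff_sg_ne (hg γ m)
  | zero => simp
  | add a b _ _ ha hb => simp [ha, hb]
  | smul c a _ ha => simp [ha]

theorem derW_psi {G : Type*} [Group G] (K : ℕ) (c : ℕ → ℝ) (u : G) : psi K c u ∈ derW u :=
  Submodule.sum_mem _ fun j _ => Submodule.smul_mem _ _ (sub_mem
    (Submodule.subset_span ⟨1, j, by simp⟩) (Submodule.subset_span ⟨1, -j, by simp⟩))

theorem derW_act {ψ : RG (FreeGroup (Option α))} (hψ : ψ ∈ derW (uu α)) (y : RG (FreeGroup α)) :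
    act ψ y ∈ derW (uu α) := by
  induction y using rg_induction with
  | zero => simp
  | add a b ha hb => rw [map_add]; exact add_mem ha hb
  | smul_sg c g => rw [map_smul, act, linOf_sg]; exact Submodule.smul_mem _ _ (derW_conj hψ _)

/-- **The derivation.**  Proof. `ψ = psi K c (uu α)`, `h = act ψ x`; `exists_derivation` with
`δ (of (some a)) = sg (of (some a)) * h` and `0` on the other generators.
`st`: `st h = - h` (`st_psi`); `δ (sg g⁻¹) = st (δ (sg g))` by `FreeGroup.induction_on`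
(`δ (s⁻¹) = - s⁻¹ δ(s) s⁻¹`), then `lin_ext`.
`tr`: let `W` be the span of the `sg (γ⁻¹ * u^m * γ)`, `γ` arbitrary, `m : ℤ`; it is invariant under
conjugation, and `sg g⁻¹ * δ (sg g) ∈ W` for all `g` (induction).  If `g⁻¹` is not of the form
`γ⁻¹ u^m γ`, every element of `W` has coefficient `0` at `g⁻¹`, so `(δ (sg g)).coeff 1 = 0`
(`coeff_sg_mul`).  If `g = γ⁻¹ u^m γ` then, as `δ (sg (u^m)) = 0`,
`δ (sg g) = δ(γ⁻¹) u^m γ + γ⁻¹ u^m δ(γ)`, whose coefficient at `1` is by `coeff_one_comm` that of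
`u^m (γ δ(γ⁻¹) + δ(γ) γ⁻¹) = u^m δ(1) = 0`.
`grow`: `der_grow`.  Formula: `δ (sg (inc g)) = sg (inc g) * act ψ (x * D g)` by induction on `g`, using
`act ψ (y * sg γ) = sg (inc γ)⁻¹ * act ψ y * sg (inc γ)`; and `act ψ 1 = ψ`.  Finish with `n2_sg_mul`,
`n2_act_le`. -/
theorem exists_der {a : α} {D : FreeGroup α → RG (FreeGroup α)} (hD : Fox a D)
    (x : RG (FreeGroup α)) (K : ℕ) (c : ℕ → ℝ) :
    ∃ δ : RG (FreeGroup (Option α)) →ₗ[ℝ] RG (FreeGroup (Option α)), Der δ ∧
      (∀ i, i ≠ some a → δ (sg (FreeGroup.of i)) = 0) ∧ δ (psi K c (uu α)) = 0 ∧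
      ∀ (g : FreeGroup α) (t : ℝ), n2 (δ (sg (inc g)) - t • (sg (inc g) * psi K c (uu α))) ≤
        (2 * ∑ j ∈ Finset.range K, |c j|) * n2 (x * D g - t • 1) := by
  classical
  obtain ⟨ψ, hψ⟩ : ∃ ψ, ψ = psi K c (uu α) := ⟨_, rfl⟩
  obtain ⟨δ, hmul, hv⟩ := exists_derivation (β := Option α) fun i =>
    sg (FreeGroup.of i) * if i = some a then act ψ x else 0
  have h1 : δ 1 = 0 := by simpa using hmul 1 1
  have h0 : ∀ i, i ≠ some a → δ (sg (FreeGroup.of i)) = 0 := fun i hi => by simp [hv, hi]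
  have hu : δ (sg (uu α)) = 0 := h0 none (by simp)
  have hun : ∀ n : ℕ, δ (sg (uu α ^ n)) = 0 := fun n => by
    induction n with
    | zero => simpa using h1
    | succ n ih => rw [pow_succ, map_mul, hmul, ih, hu, zero_mul, mul_zero, add_zero]
  have hun' : ∀ n : ℕ, δ (sg (uu α ^ n)⁻¹) = 0 := fun n => by rw [der_inv hmul, hun]; simp
  have huz : ∀ m : ℤ, δ (sg (uu α ^ m)) = 0 := fun m => by
    obtain ⟨n, rfl | rfl⟩ := m.eq_nat_or_neg
    · rw [zpow_natCast, hun]
    · rw [zpow_neg, zpow_natCast, hun']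
  have hst : ∀ g, st (δ (sg g⁻¹)) - δ (sg g) = 0 := by
    refine der_zero sg _ (fun g h => ?_) fun i => ?_
    · simp only [mul_inv_rev, map_mul, hmul, map_add, st_mul, st_sg, inv_inv, sub_mul, mul_sub]
      abel
    · rw [der_inv hmul, hv, ← mul_assoc, sg_inv_mul, one_mul, map_neg, st_mul, st_sg, inv_inv]
      split_ifs
      · rw [der_st_act (hψ ▸ st_psi K c _)]; simp
      · simp
  have hW : ∀ g, sg g⁻¹ * δ (sg g) ∈ derW (uu α) := by
    have hof : ∀ i, sg (FreeGroup.of i)⁻¹ * δ (sg (FreeGroup.of i)) ∈ derW (uu α) := fun i => by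
      rw [hv, ← mul_assoc, sg_inv_mul, one_mul]
      split_ifs
      · exact derW_act (hψ ▸ derW_psi K c _) x
      · exact zero_mem _
    intro g
    induction g using FreeGroup.induction_on with
    | C1 => simp [h1]
    | of i => exact hof i
    | inv_of i hi =>
      have := neg_mem (derW_conj hi (FreeGroup.of i)⁻¹)
      rw [der_inv hmul, mul_neg]
      simpa only [mul_assoc] using this
    | mul g h hg hh =>
      have := add_mem (derW_conj hg h) hh
      rw [mul_inv_rev, map_mul, map_mul, hmul, mul_add, mul_assoc (sg h⁻¹) (sg g⁻¹) (sg g * _),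
        ← mul_assoc (sg g⁻¹) (sg g), sg_inv_mul, one_mul]
      simpa only [mul_assoc] using this
  have htr : ∀ g, (δ (sg g)).coeff 1 = 0 := fun g => by
    by_cases hg : ∀ (γ : FreeGroup (Option α)) (m : ℤ), γ⁻¹ * uu α ^ m * γ ≠ g⁻¹
    · have := derW_coeff (hW g) hg
      rwa [coeff_sg_mul, inv_inv, mul_inv_cancel] at this
    · push Not at hg
      obtain ⟨γ, m, hg⟩ := hg
      have hc : ∀ g h, (δ (sg (g * h))).coeff 1 = (δ (sg (h * g))).coeff 1 := fun g h => by
        simp only [map_mul, hmul, MonoidAlgebra.coeff_add, Finsupp.add_apply]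
        rw [coeff_one_comm (δ _), coeff_one_comm (sg g), add_comm]
      have : g = γ⁻¹ * (uu α ^ (-m) * γ) := by
        rw [← inv_inv g, ← hg]; group
      rw [this, hc, mul_assoc, mul_inv_cancel, mul_one, huz]
      simp
  have hform : ∀ g, δ (sg (inc g)) - sg (inc g) * act ψ (x * D g) = 0 := by
    refine der_zero (sg.comp inc) _ (fun g h => ?_) fun i => ?_
    · rw [hD.mul, mul_add, map_add, ← mul_assoc x, der_act_mul, map_mul, map_mul, hmul]
      simp only [MonoidHom.comp_apply, mul_add, sub_mul, mul_sub, mul_assoc]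
      rw [← mul_assoc (sg (inc h)) (sg (inc h)⁻¹), sg_mul_inv, one_mul]
      abel
    · rw [inc_of, hv]
      by_cases hi : i = a
      · subst hi; simp [hD.self]
      · simp [hD.other i hi, hi]
  refine ⟨δ, ⟨hmul, fun y => ?_, fun y => ?_, der_grow hmul (some a) h0⟩, h0, ?_, fun g t => ?_⟩
  · refine LinearMap.congr_fun (lin_ext (S := δ ∘ₗ st) (T := st ∘ₗ δ) fun g => ?_) y
    rw [LinearMap.comp_apply, LinearMap.comp_apply, st_sg, ← sub_eq_zero.1 (hst g), st_st]
  · induction y using rg_induction with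
    | zero => simp
    | add a b ha hb => simp [ha, hb]
    | smul_sg c g => simp [htr]
  · simp only [psi, map_sum, map_smul, map_sub, hun, hun', sub_self, smul_zero, Finset.sum_const_zero]
  · refine le_trans (le_of_eq ?_) (n2_act_le K c _)
    rw [sub_eq_zero.1 (hform g), ← hψ, map_sub (act ψ), map_smul (act ψ), der_act_one, ← mul_smul_comm, ← mul_sub,
      n2_sg_mul]

end Crest.Agent.R134
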