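import Crest.Agent.R134.Basic

/-! # rid 134: the short-time flow of an analytic derivation (task `Flow`) -/

set_option autoImplicit false

open Crest.Agent.R95

namespace Crest.Agent.R134

variable {G A : Type*} [Group G] [CStarAlgebra A] {τ : Tr A} {δ : RG G →ₗ[ℝ] RG G}

/-- Leibniz rule. Induction on `k` (`Finset.sum_antidiagonal_choose_succ_nsmul` or
`Finset.Nat.antidiagonal_succ`, `antidiagonal_succ'`). -/
theorem Der.leibniz (hδ : Der δ) (k : ℕ) (x y : RG G) :
    (δ ^ k) (x * y) =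
      ∑ p ∈ Finset.HasAntidiagonal.antidiagonal k, k.choose p.1 • ((δ ^ p.1) x * (δ ^ p.2) y) := by
  induction k with
  | zero => simp
  | succ k ih =>
    rw [Finset.sum_antidiagonal_choose_succ_nsmul (fun i j => (δ ^ i) x * (δ ^ j) y) k, pow_succ',
      Module.End.mul_apply, ih, map_sum, ← Finset.sum_add_distrib]
    refine Finset.sum_congr rfl fun p hp => ?_
    have hp' : p.1 + p.2 = k := Finset.HasAntidiagonal.mem_antidiagonal.1 hp
    have hc : k.choose p.2 = k.choose p.1 := by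
      rw [← hp', Nat.choose_symm_add]
    rw [map_nsmul, hδ.mul, hc, smul_add, add_comm, pow_succ' δ p.1, pow_succ' δ p.2,
      Module.End.mul_apply, Module.End.mul_apply]

theorem Der.flow_st_pow (hδ : Der δ) (k : ℕ) (x : RG G) :
    (δ ^ k) (R134.st x) = R134.st ((δ ^ k) x) := by
  induction k with
  | zero => simp
  | succ k ih => rw [pow_succ', Module.End.mul_apply, Module.End.mul_apply, ih, hδ.st]

theorem flow_pow_apply_eq_zero {x : RG G} (h : δ x = 0) {k : ℕ} (hk : k ≠ 0) : (δ ^ k) x = 0 := by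
  obtain ⟨j, rfl⟩ := Nat.exists_eq_succ_of_ne_zero hk
  rw [pow_succ, Module.End.mul_apply, h, map_zero]

theorem flow_choose_fact {n : ℕ} {p : ℕ × ℕ} (hp : p ∈ Finset.HasAntidiagonal.antidiagonal n) :
    (n.factorial : ℝ) = n.choose p.1 * p.1.factorial * p.2.factorial := by
  have hp' : p.1 + p.2 = n := Finset.HasAntidiagonal.mem_antidiagonal.1 hp
  have h := Nat.choose_mul_factorial_mul_factorial (n := n) (k := p.1) (by omega)
  have h2 : n - p.1 = p.2 := by omega
  rw [h2] at h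
  exact_mod_cast h.symm

theorem flow_sum_antidiag (s t : ℝ) (n : ℕ) :
    ∑ p ∈ Finset.HasAntidiagonal.antidiagonal n,
      s ^ p.1 / (p.1.factorial : ℝ) * (t ^ p.2 / (p.2.factorial : ℝ)) =
      (s + t) ^ n / (n.factorial : ℝ) := by
  rw [(Commute.all s t).add_pow', Finset.sum_div]
  refine Finset.sum_congr rfl fun p hp => ?_
  have h1 : (0 : ℝ) < p.1.factorial := by exact_mod_cast Nat.factorial_pos _
  have h2 : (0 : ℝ) < p.2.factorial := by exact_mod_cast Nat.factorial_pos _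
  have h3 : (0 : ℝ) < n.choose p.1 := by
    have hp' : p.1 + p.2 = n := Finset.HasAntidiagonal.mem_antidiagonal.1 hp
    exact_mod_cast Nat.choose_pos (by omega)
  rw [flow_choose_fact hp, nsmul_eq_mul]
  field_simp

/-- the terms of the exponential series -/
noncomputable def fterm (δ : RG G →ₗ[ℝ] RG G) (π : G →* A) (s : ℝ) (x : RG G) (k : ℕ) : A :=
  (s ^ k / (k.factorial : ℝ)) • ev π ((δ ^ k) x)

section Flow

variable {K : ℝ} {Cf : RG G → ℝ} {π : G →* A} {s : ℝ}

theorem flow_Cf_nonneg (hC : ∀ x (k : ℕ), n1 ((δ ^ k) x) ≤ Cf x * K ^ k * k.factorial) (x : RG G) :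
    0 ≤ Cf x := by
  have := hC x 0
  simp only [pow_zero, Nat.factorial_zero, Nat.cast_one, mul_one] at this
  exact (n1_nonneg _).trans this

theorem norm_fterm_le (hC : ∀ x (k : ℕ), n1 ((δ ^ k) x) ≤ Cf x * K ^ k * k.factorial)
    (hπ : Reg τ π) (s : ℝ) (x : RG G) (k : ℕ) :
    ‖fterm δ π s x k‖ ≤ Cf x * (|s| * K) ^ k := by
  have h1 : (0 : ℝ) < k.factorial := by exact_mod_cast Nat.factorial_pos _
  rw [fterm, norm_smul, Real.norm_eq_abs, abs_div, abs_pow, abs_of_pos h1]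
  calc |s| ^ k / (k.factorial : ℝ) * ‖ev π ((δ ^ k) x)‖
      ≤ |s| ^ k / (k.factorial : ℝ) * (Cf x * K ^ k * k.factorial) :=
        mul_le_mul_of_nonneg_left ((hπ.norm_ev_le _).trans (hC x k)) (by positivity)
    _ = Cf x * (|s| * K) ^ k := by rw [mul_pow]; field_simp

theorem summable_norm_fterm (hK : 0 < K)
    (hC : ∀ x (k : ℕ), n1 ((δ ^ k) x) ≤ Cf x * K ^ k * k.factorial)
    (hπ : Reg τ π) (hs : |s| * K ≤ 1 / 4) (x : RG G) : Summable fun k => ‖fterm δ π s x k‖ :=
  Summable.of_nonneg_of_le (fun _ => norm_nonneg _) (norm_fterm_le hC hπ s x)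
    ((summable_geometric_of_lt_one (by positivity) (by linarith)).mul_left _)

/-- the flow as a linear map -/
noncomputable def flowL (hK : 0 < K)
    (hC : ∀ x (k : ℕ), n1 ((δ ^ k) x) ≤ Cf x * K ^ k * k.factorial)
    (hπ : Reg τ π) (hs : |s| * K ≤ 1 / 4) : RG G →ₗ[ℝ] A where
  toFun x := ∑' k, fterm δ π s x k
  map_add' x y := by
    rw [← (summable_norm_fterm hK hC hπ hs x).of_norm.tsum_add
      (summable_norm_fterm hK hC hπ hs y).of_norm]
    simp only [fterm, map_add, smul_add]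
  map_smul' c x := by
    rw [RingHom.id_apply, ← (summable_norm_fterm hK hC hπ hs x).of_norm.tsum_const_smul c]
    simp only [fterm, map_smul, smul_comm c]

variable (hK : 0 < K) (hC : ∀ x (k : ℕ), n1 ((δ ^ k) x) ≤ Cf x * K ^ k * k.factorial)
  (hπ : Reg τ π) (hs : |s| * K ≤ 1 / 4)

theorem hasSum_flowL (x : RG G) : HasSum (fterm δ π s x) (flowL hK hC hπ hs x) :=
  (summable_norm_fterm hK hC hπ hs x).of_norm.hasSum

theorem flowL_of_zero {x : RG G} (hx : δ x = 0) : flowL hK hC hπ hs x = ev π x := by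
  refine (hasSum_flowL hK hC hπ hs x).unique ?_
  have h0 : fterm δ π s x 0 = ev π x := by simp [fterm]
  rw [← h0]
  exact hasSum_single 0 fun k hk => by simp [fterm, flow_pow_apply_eq_zero hx hk]

theorem flowL_mul (hδ : Der δ) (x y : RG G) :
    flowL hK hC hπ hs (x * y) = flowL hK hC hπ hs x * flowL hK hC hπ hs y := by
  change ∑' k, fterm δ π s (x * y) k = (∑' k, fterm δ π s x k) * ∑' k, fterm δ π s y k
  rw [tsum_mul_tsum_eq_tsum_sum_antidiagonal_of_summable_norm (summable_norm_fterm hK hC hπ hs x)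
    (summable_norm_fterm hK hC hπ hs y)]
  refine tsum_congr fun n => ?_
  rw [fterm, hδ.leibniz, map_sum, Finset.smul_sum]
  refine Finset.sum_congr rfl fun p hp => ?_
  have hp' : p.1 + p.2 = n := Finset.HasAntidiagonal.mem_antidiagonal.1 hp
  have h1 : (0 : ℝ) < p.1.factorial := by exact_mod_cast Nat.factorial_pos _
  have h2 : (0 : ℝ) < p.2.factorial := by exact_mod_cast Nat.factorial_pos _
  have h3 : (0 : ℝ) < n.choose p.1 := by exact_mod_cast Nat.choose_pos (by omega)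
  rw [fterm, fterm, smul_mul_smul_comm, map_nsmul, map_mul, ← Nat.cast_smul_eq_nsmul ℝ, smul_smul]
  congr 1
  have h4 : s ^ n = s ^ p.1 * s ^ p.2 := by rw [← hp', pow_add]
  rw [flow_choose_fact hp, h4]
  field_simp

theorem star_flowL (hδ : Der δ) (x : RG G) :
    star (flowL hK hC hπ hs x) = flowL hK hC hπ hs (st x) := by
  refine (hasSum_flowL hK hC hπ hs x).star.unique ?_
  have : (fun k => star (fterm δ π s x k)) = fterm δ π s (st x) := by
    funext k
    rw [fterm, fterm, star_smul, hπ.star_ev, hδ.flow_st_pow, star_trivial]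
  rw [this]
  exact hasSum_flowL hK hC hπ hs (st x)

theorem tr_flowL (hδ : Der δ) (x : RG G) : τ (flowL hK hC hπ hs x) = (x.coeff 1 : ℝ) := by
  have h := (hasSum_flowL hK hC hπ hs x).map τ.toLin.toAddMonoidHom τ.continuous
  refine h.unique ?_
  have h0 : (τ.toLin.toAddMonoidHom ∘ fterm δ π s x) 0 = (x.coeff 1 : ℝ) := by
    simp [fterm, hπ.tr_ev]
  rw [← h0]
  refine hasSum_single 0 fun k hk => ?_
  obtain ⟨j, rfl⟩ := Nat.exists_eq_succ_of_ne_zero hk
  change τ (fterm δ π s x (j + 1)) = 0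
  rw [fterm, tr_real_smul, hπ.tr_ev, pow_succ' δ, Module.End.mul_apply, hδ.tr]
  simp

theorem flow_hasSum_back (x : RG G) :
    HasSum (fun k : ℕ => ((-s) ^ k / (k.factorial : ℝ)) • flowL hK hC hπ hs ((δ ^ k) x))
      (ev π x) := by
  let a : ℕ × ℕ → A := fun p => ((-s) ^ p.1 / (p.1.factorial : ℝ)) • fterm δ π s ((δ ^ p.1) x) p.2
  have ha : ∀ p : ℕ × ℕ, a p = ((-s) ^ p.1 / (p.1.factorial : ℝ) *
      (s ^ p.2 / (p.2.factorial : ℝ))) • ev π ((δ ^ (p.1 + p.2)) x) := by
    intro p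
    simp only [a, fterm, smul_smul]
    rw [add_comm, pow_add, Module.End.mul_apply]
  have hC0 := flow_Cf_nonneg hC x
  have hbd : ∀ p : ℕ × ℕ, ‖a p‖ ≤ Cf x * (1 / 2) ^ p.1 * (1 / 2) ^ p.2 := by
    intro p
    have h1 : (0 : ℝ) < p.1.factorial := by exact_mod_cast Nat.factorial_pos _
    have h2 : (0 : ℝ) < p.2.factorial := by exact_mod_cast Nat.factorial_pos _
    have hf := flow_choose_fact (n := p.1 + p.2) (p := p)
      (Finset.HasAntidiagonal.mem_antidiagonal.2 rfl)
    have hch : (((p.1 + p.2).choose p.1 : ℕ) : ℝ) ≤ 2 ^ (p.1 + p.2) := by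
      exact_mod_cast Nat.choose_le_two_pow _ _
    rw [ha, norm_smul, Real.norm_eq_abs, abs_mul, abs_div, abs_div, abs_pow, abs_pow, abs_neg,
      abs_of_pos h1, abs_of_pos h2]
    calc |s| ^ p.1 / (p.1.factorial : ℝ) * (|s| ^ p.2 / (p.2.factorial : ℝ)) *
          ‖ev π ((δ ^ (p.1 + p.2)) x)‖
        ≤ |s| ^ p.1 / (p.1.factorial : ℝ) * (|s| ^ p.2 / (p.2.factorial : ℝ)) *
          (Cf x * K ^ (p.1 + p.2) * (p.1 + p.2).factorial) :=
          mul_le_mul_of_nonneg_left ((hπ.norm_ev_le _).trans (hC x _)) (by positivity)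
      _ = Cf x * ((|s| * K) ^ (p.1 + p.2) * ((p.1 + p.2).choose p.1 : ℕ)) := by
          rw [hf, mul_pow, pow_add |s|]
          field_simp
      _ ≤ Cf x * ((1 / 4) ^ (p.1 + p.2) * 2 ^ (p.1 + p.2)) := by
          refine mul_le_mul_of_nonneg_left (mul_le_mul ?_ hch (by positivity) (by positivity)) hC0
          exact pow_le_pow_left₀ (by positivity) hs _
      _ = Cf x * (1 / 2) ^ p.1 * (1 / 2) ^ p.2 := by
          rw [← mul_pow, mul_assoc, ← pow_add]
          norm_num
  have hg : Summable fun k : ℕ => (1 / 2 : ℝ) ^ k := summable_geometric_two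
  have hsum : Summable a :=
    Summable.of_norm_bounded (Summable.mul_of_nonneg (hg.mul_left (Cf x)) hg
      (fun _ => by positivity) (fun _ => by positivity)) hbd
  have h1 : HasSum (fun k : ℕ => ((-s) ^ k / (k.factorial : ℝ)) • flowL hK hC hπ hs ((δ ^ k) x))
      (∑' p, a p) :=
    hsum.hasSum.prod_fiberwise fun k => (hasSum_flowL hK hC hπ hs _).const_smul _
  have h2 : HasSum (fun n : ℕ => ∑ p ∈ Finset.HasAntidiagonal.antidiagonal n, a p) (∑' p, a p) := by
    have h3 := (Finset.HasAntidiagonal.sigmaAntidiagonalEquivProd (A := ℕ)).hasSum_iff.2 hsum.hasSum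
    refine h3.sigma fun n => ?_
    rw [← Finset.sum_finset_coe]
    exact hasSum_fintype _
  have h4 : ∀ n : ℕ, ∑ p ∈ Finset.HasAntidiagonal.antidiagonal n, a p =
      ((0 : ℝ) ^ n / (n.factorial : ℝ)) • ev π ((δ ^ n) x) := by
    intro n
    rw [← neg_add_cancel s, ← flow_sum_antidiag, Finset.sum_smul]
    refine Finset.sum_congr rfl fun p hp => ?_
    rw [ha, Finset.HasAntidiagonal.mem_antidiagonal.1 hp]
  have h5 : HasSum (fun n : ℕ => ∑ p ∈ Finset.HasAntidiagonal.antidiagonal n, a p) (ev π x) := by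
    have h0 : ev π x = ∑ p ∈ Finset.HasAntidiagonal.antidiagonal 0, a p := by
      rw [h4]; simp
    rw [h0]
    exact hasSum_single 0 fun n hn => by rw [h4, zero_pow hn, zero_div, zero_smul]
  rwa [h2.unique h5] at h1

theorem norm_flowL_sub (x : RG G) :
    ‖flowL hK hC hπ hs x - ev π x - s • ev π (δ x)‖ ≤ 2 * Cf x * K ^ 2 * s ^ 2 := by
  have h1 := (hasSum_nat_add_iff' 2).2 (hasSum_flowL hK hC hπ hs x)
  have h2 : flowL hK hC hπ hs x - ∑ i ∈ Finset.range 2, fterm δ π s x i =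
      flowL hK hC hπ hs x - ev π x - s • ev π (δ x) := by
    simp [Finset.sum_range_succ, fterm, sub_sub]
  rw [h2] at h1
  have hC0 := flow_Cf_nonneg hC x
  have h3 : HasSum (fun k : ℕ => Cf x * K ^ 2 * s ^ 2 * (1 / 2 : ℝ) ^ k)
      (Cf x * K ^ 2 * s ^ 2 * 2) := hasSum_geometric_two.mul_left _
  refine (h1.norm_le_of_bounded h3 fun k => ?_).trans (le_of_eq (by ring))
  refine (norm_fterm_le hC hπ s x _).trans ?_
  have h4 : (|s| * K) ^ k ≤ (1 / 2) ^ k := pow_le_pow_left₀ (by positivity) (by linarith) _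
  calc Cf x * (|s| * K) ^ (k + 2) = Cf x * K ^ 2 * s ^ 2 * (|s| * K) ^ k := by
        rw [pow_add, mul_pow |s| K 2, sq_abs]; ring
    _ ≤ Cf x * K ^ 2 * s ^ 2 * (1 / 2 : ℝ) ^ k := mul_le_mul_of_nonneg_left h4 (by positivity)

end Flow

/-- **Short-time flow.**  Proof. Let `K` be as in `hδ.grow`, `s₀ = 1 / (4 K)`.  For `|s| ≤ s₀` put
`E π s x = ∑' k, (s ^ k / k !) • ev π ((δ ^ k) x)`; the terms have norm `≤ C x * (1/4)^k`
(`Reg.norm_ev_le`).  `E π s` is real linear in `x`, multiplicative (`Der.leibniz` and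
`tsum_mul_tsum_eq_tsum_sum_antidiagonal_of_summable_norm`), `E π s 1 = 1` and more generally
`E π s x = ev π x` if `δ x = 0` (`Der.one`); `star (E π s x) = E π s (st x)` (`Reg.star_ev`, `Der.st`,
`tsum_star`); `τ (E π s x) = x.coeff 1` (`Reg.tr_ev`, `Der.tr`, `τ.continuous`; all terms with `k ≥ 1`
have trace `0`).  So `π' g = E π s (sg g)` is a `Reg` representation with `ev π' = E π s`
(`rg_induction`).  Generation: `ev π x = ∑' k, ((-s) ^ k / k !) • ev π' ((δ ^ k) x)`: the double series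
`∑_{k,j} (-s)^k s^j / (k! j!) • ev π ((δ ^ (j + k)) x)` is absolutely summable (its terms are bounded by
`C (1/4)^(j+k) choose (j+k) j ≤ C (1/2)^j (1/2)^k`), and summing over antidiagonals
(`Finset.sigmaAntidiagonalEquivProd`, or `HasSum.prod_fiberwise`/`summable_sum_mul_antidiagonal…`)
gives `∑_m (s - s)^m / m! • ev π ((δ ^ m) x)`; every partial sum lies in the span (`ev_mem_span`).
The second order estimate is the tail `k ≥ 2` of the series:
`‖(s^k / k!) • ev π (δ^k x)‖ ≤ s² C K² (1/4)^(k-2)`. -/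
theorem flow_step (hδ : Der δ) : ∃ s₀ : ℝ, 0 < s₀ ∧ ∃ C : RG G → ℝ, ∀ π : G →* A, Reg τ π →
    ∀ s : ℝ, |s| ≤ s₀ → ∃ π' : G →* A, Reg τ π' ∧ Gens π' π ∧
      (∀ x, δ x = 0 → ev π' x = ev π x) ∧
      ∀ x, ‖ev π' x - ev π x - s • ev π (δ x)‖ ≤ C x * s ^ 2 := by
  obtain ⟨K, hK, hg⟩ := hδ.grow
  choose Cf hC using hg
  refine ⟨1 / (4 * K), by positivity, fun x => 2 * Cf x * K ^ 2, fun π hπ s hs' => ?_⟩
  have hs : |s| * K ≤ 1 / 4 := by
    rw [le_div_iff₀ (by positivity)] at hs'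
    linarith
  let π' : G →* A :=
    { toFun := fun g => flowL hK hC hπ hs (sg g)
      map_one' := by rw [map_one, flowL_of_zero hK hC hπ hs hδ.one, map_one]
      map_mul' := fun g h => by rw [map_mul, flowL_mul hK hC hπ hs hδ] }
  have hev : ∀ x, ev π' x = flowL hK hC hπ hs x := fun x =>
    LinearMap.congr_fun (lin_ext (S := (ev π').toLinearMap) (T := flowL hK hC hπ hs)
      fun g => ev_sg π' g) x
  refine ⟨π', ⟨fun g => ?_, fun g hg => ?_⟩, fun g => ?_, fun x hx => ?_, fun x => ?_⟩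
  · change star (flowL hK hC hπ hs (sg g)) = flowL hK hC hπ hs (sg g⁻¹)
    rw [star_flowL hK hC hπ hs hδ, st_sg]
  · change τ (flowL hK hC hπ hs (sg g)) = 0
    rw [tr_flowL hK hC hπ hs hδ, coeff_sg_ne hg, Complex.ofReal_zero]
  · have h := flow_hasSum_back hK hC hπ hs (sg g)
    rw [ev_sg] at h
    refine (Submodule.isClosed_topologicalClosure _).mem_of_tendsto h.tendsto_sum_nat
      (Filter.Eventually.of_forall fun n => ?_)
    refine Submodule.le_topologicalClosure _ (Submodule.sum_mem _ fun k _ => ?_)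
    rw [← hev, ← Complex.coe_smul]
    exact Submodule.smul_mem _ _ (ev_mem_span π' _)
  · rw [hev, flowL_of_zero hK hC hπ hs hx]
  · rw [hev]
    exact norm_flowL_sub hK hC hπ hs x

end Crest.Agent.R134
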