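import Crest.Agent.R134.Basic

/-! # rid 134: derivations of the group algebra of a free group (task `Grow`) -/

set_option autoImplicit false

namespace Crest.Agent.R134

variable {β : Type*}

/-- Twisted cocycles on a free group with prescribed values on the generators. -/
theorem exists_cocycle {R : Type*} [Ring R] (ρ₁ ρ₂ : FreeGroup β →* R) (v : β → R) :
    ∃ d : FreeGroup β → R, (∀ g h, d (g * h) = ρ₁ g * d h + d g * ρ₂ h) ∧
      ∀ i, d (FreeGroup.of i) = v i := by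
  have e1 : ∀ (ρ : FreeGroup β →* R) (g : FreeGroup β), ρ g * ρ g⁻¹ = 1 := fun ρ g => by
    rw [← map_mul, mul_inv_cancel, map_one]
  have e2 : ∀ (ρ : FreeGroup β →* R) (g : FreeGroup β), ρ g⁻¹ * ρ g = 1 := fun ρ g => by
    rw [← map_mul, inv_mul_cancel, map_one]
  let f : β → (Matrix (Fin 2) (Fin 2) R)ˣ := fun i =>
    ⟨!![ρ₁ (FreeGroup.of i), v i; 0, ρ₂ (FreeGroup.of i)],
      !![ρ₁ (FreeGroup.of i)⁻¹, -(ρ₁ (FreeGroup.of i)⁻¹ * v i * ρ₂ (FreeGroup.of i)⁻¹);
        0, ρ₂ (FreeGroup.of i)⁻¹],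
      by
        ext a b
        fin_cases a <;> fin_cases b <;> simp [Matrix.mul_apply, Fin.sum_univ_two, e1, ← mul_assoc],
      by
        ext a b
        fin_cases a <;> fin_cases b <;> simp [Matrix.mul_apply, Fin.sum_univ_two, e2, mul_assoc]⟩
  have key : ∀ g, (FreeGroup.lift f g : Matrix (Fin 2) (Fin 2) R) 0 0 = ρ₁ g ∧
      (FreeGroup.lift f g : Matrix (Fin 2) (Fin 2) R) 1 0 = 0 ∧
      (FreeGroup.lift f g : Matrix (Fin 2) (Fin 2) R) 1 1 = ρ₂ g := by
    intro g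
    induction g with
    | C1 => simp
    | of i => simp [f]
    | inv_of i _ =>
      rw [map_inv, FreeGroup.lift_apply_of]
      exact ⟨rfl, rfl, rfl⟩
    | mul g h hg hh =>
      simp [Matrix.mul_apply, Fin.sum_univ_two, hg.1, hg.2.1, hg.2.2, hh.1, hh.2.1, hh.2.2]
  refine ⟨fun g => (FreeGroup.lift f g : Matrix (Fin 2) (Fin 2) R) 0 1, fun g h => ?_, fun i => ?_⟩
  · simp [Matrix.mul_apply, Fin.sum_univ_two, (key g).1, (key h).2.2]
  · simp [f]

/-- A derivation with prescribed values on the generators.  Proof. `FreeGroup.lift` into the units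
of `TrivSqZeroExt R R` (`R = RG (FreeGroup β)`), or of `Matrix (Fin 2) (Fin 2) R`
(`of i ↦ !![sg (of i), v i; 0, sg (of i)]`, inverse `!![s⁻¹, -s⁻¹ v s⁻¹; 0, s⁻¹]`); the diagonal part of
the image of `g` is `sg g` (`FreeGroup.induction_on`), so the corner `d g` satisfies
`d (g * h) = d g * sg h + sg g * d h`; take `δ = linOf d` and use `rg_induction` twice. -/
theorem exists_derivation (v : β → RG (FreeGroup β)) :
    ∃ δ : RG (FreeGroup β) →ₗ[ℝ] RG (FreeGroup β),
      (∀ x y, δ (x * y) = δ x * y + x * δ y) ∧ ∀ i, δ (sg (FreeGroup.of i)) = v i := by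
  obtain ⟨d, h1, h2⟩ := exists_cocycle sg sg v
  refine ⟨linOf d, fun x y => ?_, fun i => by rw [linOf_sg, h2]⟩
  induction x using rg_induction with
  | zero => simp
  | add a b ha hb => rw [add_mul, map_add, map_add, ha, hb, add_mul, add_mul]; abel
  | smul_sg c g =>
    induction y using rg_induction with
    | zero => simp
    | add a b ha hb => rw [mul_add, map_add, map_add, ha, hb, mul_add, mul_add]; abel
    | smul_sg e h =>
      simp only [smul_mul_smul_comm, map_smul, ← map_mul, linOf_sg, h1, smul_add]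
      rw [add_comm]

/-- The Fox derivative.  Proof. Same trick with `!![sg g, 0; D g, 1]`-type matrices, or a
semidirect product, or from `exists_derivation`-like recursion. -/
theorem exists_fox {α : Type*} (a : α) : ∃ D : FreeGroup α → RG (FreeGroup α), Fox a D := by
  classical
  obtain ⟨d, h1, h2⟩ := exists_cocycle (1 : FreeGroup α →* RG (FreeGroup α)) sg
    fun i => if i = a then 1 else 0
  exact ⟨d, fun g h => by rw [h1, MonoidHom.one_apply, one_mul, add_comm], by rw [h2, if_pos rfl],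
    fun i hi => by rw [h2, if_neg hi]⟩

section grow

variable [DecidableEq β]

/-- `x` is supported in the ball of radius `r`. -/
def Supp (r : ℕ) (x : RG (FreeGroup β)) : Prop := ∀ g, x.coeff g ≠ 0 → FreeGroup.norm g ≤ r

theorem Supp.mono {r r' : ℕ} {x : RG (FreeGroup β)} (h : Supp r x) (hr : r ≤ r') : Supp r' x :=
  fun g hg => (h g hg).trans hr

theorem Supp.zero (r : ℕ) : Supp r (0 : RG (FreeGroup β)) := fun g hg => by simp at hg

theorem Supp.add {r : ℕ} {x y : RG (FreeGroup β)} (hx : Supp r x) (hy : Supp r y) :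
    Supp r (x + y) := fun g hg => by
  by_cases h : x.coeff g = 0
  · exact hy g fun h' => hg (by simp [h, h'])
  · exact hx g h

theorem Supp.smul {r : ℕ} {x : RG (FreeGroup β)} (hx : Supp r x) (c : ℝ) : Supp r (c • x) :=
  fun g hg => hx g fun h => hg (by simp [h])

theorem Supp.neg {r : ℕ} {x : RG (FreeGroup β)} (hx : Supp r x) : Supp r (-x) := by
  simpa using hx.smul (-1)

theorem Supp.sg_mul {r : ℕ} {x : RG (FreeGroup β)} (hx : Supp r x) (g : FreeGroup β) :
    Supp (FreeGroup.norm g + r) (sg g * x) := fun h hh => by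
  rw [coeff_sg_mul] at hh
  have h1 := FreeGroup.norm_mul_le g (g⁻¹ * h)
  rw [mul_inv_cancel_left] at h1
  have := hx _ hh
  omega

theorem Supp.mul_sg {r : ℕ} {x : RG (FreeGroup β)} (hx : Supp r x) (g : FreeGroup β) :
    Supp (r + FreeGroup.norm g) (x * sg g) := fun h hh => by
  rw [coeff_mul_sg] at hh
  have h1 := FreeGroup.norm_mul_le (h * g⁻¹) g
  rw [inv_mul_cancel_right] at h1
  have := hx _ hh
  omega

theorem exists_supp (x : RG (FreeGroup β)) : ∃ r, Supp r x :=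
  ⟨x.coeff.support.sup FreeGroup.norm, fun _ hg =>
    Finset.le_sup (f := FreeGroup.norm) (Finsupp.mem_support_iff.2 hg)⟩

theorem Supp.sum {ι : Type*} {r : ℕ} (s : Finset ι) {x : ι → RG (FreeGroup β)}
    (h : ∀ i ∈ s, Supp r (x i)) : Supp r (∑ i ∈ s, x i) :=
  Finset.sum_induction _ (Supp r) (fun _ _ => Supp.add) (Supp.zero r) h

omit [DecidableEq β] in
theorem n1_mul_sg_le (x : RG (FreeGroup β)) (g : FreeGroup β) : n1 (x * sg g) ≤ n1 x := by
  simpa using n1_mul_le x (sg g)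

theorem der_word {δ : RG (FreeGroup β) →ₗ[ℝ] RG (FreeGroup β)}
    (hmul : ∀ x y, δ (x * y) = δ x * y + x * δ y) {L : ℝ} {d : ℕ}
    (h : ∀ i, n1 (δ (sg (FreeGroup.of i))) ≤ L ∧ Supp d (δ (sg (FreeGroup.of i))))
    (w : List (β × Bool)) :
    n1 (δ (sg (FreeGroup.mk w))) ≤ L * w.length ∧ Supp (w.length + (d + 2)) (δ (sg (FreeGroup.mk w))) := by
  have h1 : δ 1 = 0 := by simpa using hmul 1 1
  have hl : ∀ p : β × Bool, n1 (δ (sg (FreeGroup.mk [p]))) ≤ L ∧
      Supp (d + 2) (δ (sg (FreeGroup.mk [p]))) := by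
    rintro ⟨i, _ | _⟩
    · have e : FreeGroup.mk [(i, false)] = (FreeGroup.of i)⁻¹ := rfl
      have e2 : δ (sg (FreeGroup.of i)⁻¹) =
          -(sg (FreeGroup.of i)⁻¹ * δ (sg (FreeGroup.of i)) * sg (FreeGroup.of i)⁻¹) := by
        have h2 := hmul (sg (FreeGroup.of i)⁻¹) (sg (FreeGroup.of i))
        rw [sg_inv_mul, h1] at h2
        rw [eq_neg_iff_add_eq_zero, ← mul_one (δ (sg (FreeGroup.of i)⁻¹)),
          ← sg_mul_inv (FreeGroup.of i), ← mul_assoc, ← add_mul, ← h2, zero_mul]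
      rw [e, e2, map_neg_eq_map]
      refine ⟨(n1_mul_sg_le _ _).trans ((n1_sg_mul _ _).trans (h i).1), ?_⟩
      refine ((((h i).2.sg_mul _).mul_sg _).mono ?_).neg
      simp; omega
    · exact ⟨(h i).1, (h i).2.mono (by omega)⟩
  induction w with
  | nil =>
    rw [← FreeGroup.one_eq_mk, map_one, h1]
    exact ⟨by simp, Supp.zero _⟩
  | cons p w ih =>
    have e : FreeGroup.mk (p :: w) = FreeGroup.mk [p] * FreeGroup.mk w := rfl
    have n1' : FreeGroup.norm (FreeGroup.mk [p]) ≤ 1 := FreeGroup.norm_mk_le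
    have n2' : FreeGroup.norm (FreeGroup.mk w) ≤ w.length := FreeGroup.norm_mk_le
    rw [e, map_mul, hmul, List.length_cons]
    refine ⟨(map_add_le_add _ _ _).trans ?_, Supp.add ?_ ?_⟩
    · have a1 := (n1_mul_sg_le _ (FreeGroup.mk w)).trans (hl p).1
      have a2 := (n1_sg_mul (FreeGroup.mk [p]) _).trans ih.1
      push_cast; linarith
    · exact ((hl p).2.mul_sg _).mono (by omega)
    · exact (ih.2.sg_mul _).mono (by omega)

theorem der_step {δ : RG (FreeGroup β) →ₗ[ℝ] RG (FreeGroup β)}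
    (hmul : ∀ x y, δ (x * y) = δ x * y + x * δ y) {L : ℝ} (hL : 0 ≤ L) {d : ℕ}
    (h : ∀ i, n1 (δ (sg (FreeGroup.of i))) ≤ L ∧ Supp d (δ (sg (FreeGroup.of i))))
    {r : ℕ} {x : RG (FreeGroup β)} (hx : Supp r x) :
    n1 (δ x) ≤ L * r * n1 x ∧ Supp (r + (d + 2)) (δ x) := by
  have hg : ∀ g, FreeGroup.norm g ≤ r → n1 (δ (sg g)) ≤ L * r ∧ Supp (r + (d + 2)) (δ (sg g)) := by
    intro g hg
    have := der_word hmul h g.toWord
    rw [FreeGroup.mk_toWord] at this
    exact ⟨this.1.trans (mul_le_mul_of_nonneg_left (by exact_mod_cast hg) hL),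
      this.2.mono (Nat.add_le_add_right hg _)⟩
  refine ⟨le_mul_n1 n1 δ x fun g h' => (hg g (hx g (Finsupp.mem_support_iff.1 h'))).1, ?_⟩
  rw [eq_sum_sg x, map_sum]
  refine Supp.sum _ fun g h' => ?_
  rw [map_smul]
  exact (hg g (hx g (Finsupp.mem_support_iff.1 h'))).2.smul _

end grow

/-- Analyticity.  Proof. (`classical`, `ℓ = FreeGroup.norm`.)  Let `L = n1 (δ (sg (of a)))` and let `d`
bound `ℓ` on the support of `δ (sg (of a))`, `d ≥ 1`.  For a letter `x = (of i)^{±1}`: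
`n1 (δ (sg x)) ≤ L` and `δ (sg x)` is supported in `ℓ ≤ d + 2` (`δ (s⁻¹) = - s⁻¹ δ(s) s⁻¹`).
By induction on a list `w` of letters, `n1 (δ (sg (mk w))) ≤ L * w.length` and `δ (sg (mk w))` is
supported in `ℓ ≤ w.length + d + 2` (`n1_mul_le`, `coeff_mul_sg`, `coeff_sg_mul`, `norm_mul_le`); apply
it to `w = g.toWord`.  Hence if `x` is supported in `ℓ ≤ r` then `n1 (δ x) ≤ L r * n1 x`
(`le_mul_n1`) and `δ x` is supported in `ℓ ≤ r + e`, `e = d + 2`.  So
`n1 (δ^k x) ≤ n1 x * L^k * ∏_{j<k} (r + j e) ≤ n1 x * (L e)^k * ∏_{j<k} (r + 1 + j)` and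
`∏_{j<k} (r + 1 + j) = choose (r + k) k * k! ≤ 2^(r+k) k!` (`Nat.ascFactorial_eq_factorial_mul_choose`,
`Nat.choose_le_two_pow`).  `K = 2 L e + 1`. -/
theorem der_grow {δ : RG (FreeGroup β) →ₗ[ℝ] RG (FreeGroup β)}
    (hmul : ∀ x y, δ (x * y) = δ x * y + x * δ y) (a : β)
    (h0 : ∀ i, i ≠ a → δ (sg (FreeGroup.of i)) = 0) :
    ∃ K : ℝ, 0 < K ∧ ∀ x, ∃ C : ℝ, ∀ k : ℕ, n1 ((δ ^ k) x) ≤ C * K ^ k * k.factorial := by
  classical
  obtain ⟨d, hd⟩ := exists_supp (δ (sg (FreeGroup.of a)))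
  have hL := n1_nonneg (δ (sg (FreeGroup.of a)))
  have h : ∀ i, n1 (δ (sg (FreeGroup.of i))) ≤ n1 (δ (sg (FreeGroup.of a))) ∧
      Supp d (δ (sg (FreeGroup.of i))) := fun i => by
    by_cases hi : i = a
    · subst hi; exact ⟨le_rfl, hd⟩
    · rw [h0 i hi, map_zero]; exact ⟨hL, Supp.zero _⟩
  generalize n1 (δ (sg (FreeGroup.of a))) = L at hL h
  refine ⟨2 * (L * (d + 2 : ℕ)) + 1, by positivity, fun x => ?_⟩
  obtain ⟨r, hr⟩ := exists_supp x
  have hx := n1_nonneg x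
  have key : ∀ k : ℕ, n1 ((δ ^ k) x) ≤ n1 x * (L * (d + 2 : ℕ)) ^ k * ((r + 1).ascFactorial k : ℕ) ∧
      Supp (r + k * (d + 2)) ((δ ^ k) x) := by
    intro k
    induction k with
    | zero => simpa using hr
    | succ k ih =>
      obtain ⟨h1, h2⟩ := der_step hmul hL h ih.2
      rw [pow_succ', Module.End.mul_apply]
      refine ⟨h1.trans ?_, h2.mono (le_of_eq (by ring))⟩
      have h3 : ((r + k * (d + 2) : ℕ) : ℝ) ≤ (d + 2 : ℕ) * (r + 1 + k : ℕ) := by
        exact_mod_cast (by nlinarith : r + k * (d + 2) ≤ (d + 2) * (r + 1 + k))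
      rw [Nat.ascFactorial_succ, Nat.cast_mul]
      calc L * (r + k * (d + 2) : ℕ) * n1 ((δ ^ k) x)
          ≤ L * ((d + 2 : ℕ) * (r + 1 + k : ℕ)) *
            (n1 x * (L * (d + 2 : ℕ)) ^ k * ((r + 1).ascFactorial k : ℕ)) := by
            gcongr
            exact ih.1
        _ = _ := by ring
  refine ⟨n1 x * 2 ^ r, fun k => (key k).1.trans ?_⟩
  have h1 : (((r + 1).ascFactorial k : ℕ) : ℝ) ≤ k.factorial * 2 ^ (r + k) := by
    rw [Nat.ascFactorial_eq_factorial_mul_choose]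
    exact_mod_cast Nat.mul_le_mul_left _ (Nat.choose_le_two_pow _ _)
  calc n1 x * (L * (d + 2 : ℕ)) ^ k * ((r + 1).ascFactorial k : ℕ)
      ≤ n1 x * (L * (d + 2 : ℕ)) ^ k * (k.factorial * 2 ^ (r + k)) := by gcongr
    _ = n1 x * 2 ^ r * (2 * (L * (d + 2 : ℕ))) ^ k * k.factorial := by
        rw [pow_add, mul_pow 2]; ring
    _ ≤ n1 x * 2 ^ r * (2 * (L * (d + 2 : ℕ)) + 1) ^ k * k.factorial := by
        gcongr; linarith

end Crest.Agent.R134
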