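import Crest.Agent.R134.VN

/-! # rid 134: a generating regular representation gives an isomorphism (task `Iso`) -/

set_option autoImplicit false
set_option linter.unusedSectionVars false

open Crest.Agent.R95 Crest.OpAlg
open scoped InnerProductSpace

namespace Crest.Agent.R134

section general
variable {A B : Type*} [Ring A] [StarRing A] [Algebra ℂ A] [StarModule ℂ A]
  [Ring B] [StarRing B] [Algebra ℂ B] [StarModule ℂ B]

theorem iso_map_mem_centralizer_iff (Φ : A ≃⋆ₐ[ℂ] B) (s : Set A) (x : A) :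
    Φ x ∈ StarSubalgebra.centralizer ℂ (Φ '' s) ↔ x ∈ StarSubalgebra.centralizer ℂ s := by
  simp only [StarSubalgebra.mem_centralizer_iff, Set.forall_mem_image, ← map_star, ← map_mul,
    EmbeddingLike.apply_eq_iff_eq]

theorem iso_image_centralizer (Φ : A ≃⋆ₐ[ℂ] B) (s : Set A) :
    Φ '' (StarSubalgebra.centralizer ℂ s : Set A) =
      (StarSubalgebra.centralizer ℂ (Φ '' s) : Set B) := by
  ext y
  obtain ⟨x, rfl⟩ := (EquivLike.surjective Φ) y
  rw [(EquivLike.injective Φ).mem_set_image, SetLike.mem_coe, SetLike.mem_coe,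
    iso_map_mem_centralizer_iff]

/-- restriction of a star isomorphism to star subalgebras -/
theorem iso_exists_restrict (Φ : A ≃⋆ₐ[ℂ] B) (S : StarSubalgebra ℂ A) (T : StarSubalgebra ℂ B)
    (h : ∀ x, Φ x ∈ T ↔ x ∈ S) : ∃ Ψ : S ≃⋆ₐ[ℂ] T, ∀ x : S, (Ψ x : B) = Φ x := by
  let f : S →⋆ₐ[ℂ] T :=
    StarAlgHom.codRestrict ((Φ : A →⋆ₐ[ℂ] B).comp S.subtype) T fun x => (h x).2 x.2
  have hf : ∀ x : S, (f x : B) = Φ x := fun x => rfl
  refine ⟨StarAlgEquiv.ofBijective f ⟨fun x y hxy => ?_, fun y => ?_⟩, hf⟩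
  · have := congrArg Subtype.val hxy
    rw [hf, hf] at this
    exact Subtype.ext (EquivLike.injective Φ this)
  · obtain ⟨x, hx⟩ := (EquivLike.surjective Φ) y
    exact ⟨⟨x, (h x).1 (hx ▸ y.2)⟩, Subtype.ext hx⟩

end general

theorem iso_dl_ext {Γ : Type*} [DecidableEq Γ] {E : Type*} [NormedAddCommGroup E] [NormedSpace ℂ E]
    {S T : ltwo Γ →L[ℂ] E} (h : ∀ γ, S (dl γ) = T (dl γ)) : S = T := by
  refine lp.ext_continuousLinearMap (by norm_num) fun γ => ?_
  ext
  simpa using h γ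

section main
variable {Γ G : Type*} [Group Γ] [DecidableEq Γ] [Group G] [DecidableEq G]
  {τ : Tr (LG G)} {lam : G →* LG G} {ρ : Γ →* LG G}

theorem GTr.iso_inner_apply (h : GTr G τ lam) (x y : LG G) :
    ⟪(x : ltwo G →L[ℂ] ltwo G) (dl 1), (y : ltwo G →L[ℂ] ltwo G) (dl 1)⟫_ℂ = τ (star x * y) := by
  rw [h.tr, groupTrace]
  change _ = ⟪dl 1, (star (x : ltwo G →L[ℂ] ltwo G)) ((y : ltwo G →L[ℂ] ltwo G) (dl 1))⟫_ℂ
  rw [ContinuousLinearMap.star_eq_adjoint, ContinuousLinearMap.adjoint_inner_right]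

theorem iso_orthonormal_reg (h : GTr G τ lam) (hρ : Reg τ ρ) :
    Orthonormal ℂ fun γ => (ρ γ : ltwo G →L[ℂ] ltwo G) (dl 1) := by
  rw [orthonormal_iff_ite]
  intro i j
  rw [h.iso_inner_apply, hρ.star, ← map_mul]
  split_ifs with hij
  · subst hij; simp
  · exact hρ.tr _ fun e => hij (inv_mul_eq_one.1 e)

theorem iso_orthogonal_eq_bot (h : GTr G τ lam)
    (hgen : ∀ g, ∀ ε > 0, ∃ y ∈ Submodule.span ℂ (Set.range ρ), τ.n (lam g - y) < ε) :
    (Submodule.span ℂ (Set.range fun γ => (ρ γ : ltwo G →L[ℂ] ltwo G) (dl 1)))ᗮ = ⊥ := by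
  rw [eq_bot_iff]
  intro ξ hξ
  rw [Submodule.mem_orthogonal] at hξ
  have h1 : ∀ y ∈ Submodule.span ℂ (Set.range ρ),
      ⟪((y : LG G) : ltwo G →L[ℂ] ltwo G) (dl 1), ξ⟫_ℂ = 0 := by
    intro y hy
    apply hξ
    induction hy using Submodule.span_induction with
    | mem x hx => obtain ⟨γ, rfl⟩ := hx; exact Submodule.subset_span ⟨γ, rfl⟩
    | zero => simp
    | add x y _ _ hx hy => exact add_mem hx hy
    | smul c x _ hx => exact Submodule.smul_mem _ c hx
  have h2 : ∀ g, ⟪dl g, ξ⟫_ℂ = 0 := by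
    intro g
    rw [← norm_le_zero_iff]
    refine le_of_forall_pos_le_add fun ε hε => ?_
    obtain ⟨y, hy, hlt⟩ := hgen g (ε / (‖ξ‖ + 1)) (by positivity)
    have e : dl g = ((lam g - y : LG G) : ltwo G →L[ℂ] ltwo G) (dl 1) +
        ((y : LG G) : ltwo G →L[ℂ] ltwo G) (dl 1) := by
      have : ((lam g - y : LG G) : ltwo G →L[ℂ] ltwo G) = (lam g : ltwo G →L[ℂ] ltwo G) - y := rfl
      rw [this, sub_apply, sub_add_cancel, h.coe, leftRegular_dl, mul_one]
    rw [e, inner_add_left, h1 y hy, add_zero, zero_add]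
    refine (norm_inner_le_norm _ _).trans ?_
    rw [← h.n]
    rw [lt_div_iff₀ (by positivity)] at hlt
    nlinarith [τ.n_nonneg (lam g - y), norm_nonneg ξ]
  rw [Submodule.mem_bot]
  ext g
  have := h2 g
  rw [lp.inner_single_left] at this
  simpa using this

theorem iso_centralizer_eq (h : GTr G τ lam)
    (hgen : ∀ g, ∀ ε > 0, ∃ y ∈ Submodule.span ℂ (Set.range ρ), τ.n (lam g - y) < ε) :
    StarSubalgebra.centralizer ℂ (Set.range fun γ => (ρ γ : ltwo G →L[ℂ] ltwo G)) =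
      StarSubalgebra.centralizer ℂ (Set.range (leftRegular (G := G))) := by
  apply le_antisymm
  · intro T hT
    have key : ∀ g, T * leftRegular g = leftRegular g * T := by
      intro g
      rw [← h.coe]
      refine h.comm (StarAlgebra.adjoin ℂ (Set.range ρ)) (lam g) (fun ε hε => ?_) T fun a ha => ?_
      · obtain ⟨y, hy, hlt⟩ := hgen g ε hε
        refine ⟨y, ?_, hlt⟩
        have : Submodule.span ℂ (Set.range ρ) ≤
            Subalgebra.toSubmodule (StarAlgebra.adjoin ℂ (Set.range ρ)).toSubalgebra :=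
          Submodule.span_le.2 (StarAlgebra.subset_adjoin ℂ _)
        exact this hy
      · have h3 : StarAlgebra.adjoin ℂ (Set.range ρ) ≤
            (StarSubalgebra.centralizer ℂ {T}).comap (LG G).subtype := by
          refine StarAlgebra.adjoin_le ?_
          rintro _ ⟨γ, rfl⟩
          have h4 := (StarSubalgebra.mem_centralizer_iff ℂ).1 hT _ ⟨γ, rfl⟩
          change (ρ γ : ltwo G →L[ℂ] ltwo G) ∈ StarSubalgebra.centralizer ℂ {T}
          rw [StarSubalgebra.mem_centralizer_iff]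
          rintro _ rfl
          refine ⟨h4.1.symm, ?_⟩
          have := congrArg star h4.2
          simpa only [star_mul, star_star] using this
        exact ((StarSubalgebra.mem_centralizer_iff ℂ).1 (h3 ha) T rfl).1
    rw [StarSubalgebra.mem_centralizer_iff]
    rintro _ ⟨g, rfl⟩
    refine ⟨(key g).symm, ?_⟩
    have : star (leftRegular g) = leftRegular g⁻¹ := by
      rw [← h.coe, ← h.coe, ← h.reg.star]; rfl
    rw [this]
    exact (key _).symm
  · intro T hT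
    rw [StarSubalgebra.mem_centralizer_iff]
    rintro _ ⟨γ, rfl⟩
    have h1 := (StarSubalgebra.mem_centralizer_iff ℂ).1 (ρ γ).2 T hT
    have h2 := (StarSubalgebra.mem_centralizer_iff ℂ).1 (star (ρ γ)).2 T hT
    exact ⟨h1.1.symm, h2.1.symm⟩

end main

/-- Proof. The vectors `v γ = ρ γ (dl 1)` are orthonormal (`⟪v γ, v γ'⟫ = τ (ρ (γ⁻¹ γ'))`) with dense span
(the closure of the span contains every `dl g = lam g (dl 1)` by `hgen` and `GTr.n`), so
`HilbertBasis.mk` gives `b` and `W = b.repr.symm : ltwo Γ ≃ₗᵢ[ℂ] ltwo G` with `W (dl γ) = v γ`.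
`Φ₀ = W.conjStarAlgEquiv` maps `leftRegular γ` to `ρ γ` (check on the `v γ'`).  The star-centralizers of
`range (ρ ·)` and of `range leftRegular` in `B(ltwo G)` agree: `⊇` because `ρ γ ∈ groupVNA G`, `⊆` by
`GTr.comm` applied to the star subalgebra `S` whose carrier is `span ℂ (range ρ)` (or
`StarAlgebra.adjoin ℂ (range ρ)`).  A star isomorphism maps centralizers to centralizers, so
`x ∈ groupVNA Γ ↔ Φ₀ x ∈ groupVNA G`; restrict `Φ₀`.  Trace: `W (dl 1) = dl 1`. -/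
theorem iso_of_gen {Γ G : Type*} [Group Γ] [DecidableEq Γ] [Group G] [DecidableEq G]
    {τ : Tr (LG G)} {lam : G →* LG G} (h : GTr G τ lam) {ρ : Γ →* LG G} (hρ : Reg τ ρ)
    (hgen : ∀ g, ∀ ε > 0, ∃ y ∈ Submodule.span ℂ (Set.range ρ), τ.n (lam g - y) < ε) :
    ∃ Φ : LG Γ ≃⋆ₐ[ℂ] LG G, ∀ x : LG Γ,
      groupTrace G ((Φ x : LG G) : ltwo G →L[ℂ] ltwo G) =
        groupTrace Γ (x : ltwo Γ →L[ℂ] ltwo Γ) := by
  let b : HilbertBasis Γ ℂ (ltwo G) :=
    HilbertBasis.mkOfOrthogonalEqBot (iso_orthonormal_reg h hρ) (iso_orthogonal_eq_bot h hgen)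
  let W : ltwo Γ ≃ₗᵢ[ℂ] ltwo G := b.repr.symm
  have hW : ∀ γ, W (dl γ) = (ρ γ : ltwo G →L[ℂ] ltwo G) (dl 1) := fun γ => by
    have := b.repr_symm_single γ
    rw [HilbertBasis.coe_mkOfOrthogonalEqBot] at this
    exact this
  have hW1 : W (dl 1) = dl 1 := by rw [hW, map_one]; rfl
  let Φ₀ := W.conjStarAlgEquiv
  have hΦ : ∀ γ, Φ₀ (leftRegular γ) = (ρ γ : ltwo G →L[ℂ] ltwo G) := fun γ => by
    have e : (W : ltwo Γ →L[ℂ] ltwo G) ∘L leftRegular γ =
        (ρ γ : ltwo G →L[ℂ] ltwo G) ∘L (W : ltwo Γ →L[ℂ] ltwo G) := by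
      refine iso_dl_ext fun γ' => ?_
      change W (leftRegular γ (dl γ')) = (ρ γ : ltwo G →L[ℂ] ltwo G) (W (dl γ'))
      rw [leftRegular_dl, hW, hW, map_mul]
      rfl
    refine ContinuousLinearMap.ext fun ξ => ?_
    have := congrArg (fun T : ltwo Γ →L[ℂ] ltwo G => T (W.symm ξ)) e
    change W (leftRegular γ (W.symm ξ)) = _
    simpa using this
  have him : Φ₀ '' Set.range (leftRegular (G := Γ)) =
      Set.range fun γ => (ρ γ : ltwo G →L[ℂ] ltwo G) := by
    rw [← Set.range_comp]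
    exact congrArg Set.range (funext hΦ)
  obtain ⟨Ψ, hΨ⟩ := iso_exists_restrict Φ₀ (LG Γ) (LG G) fun x => by
    change Φ₀ x ∈ StarSubalgebra.centralizer ℂ _ ↔ x ∈ StarSubalgebra.centralizer ℂ _
    rw [← iso_map_mem_centralizer_iff Φ₀, iso_image_centralizer, him, iso_centralizer_eq h hgen]
  refine ⟨Ψ, fun x => ?_⟩
  rw [hΨ, groupTrace, groupTrace]
  change ⟪dl 1, W ((x : ltwo Γ →L[ℂ] ltwo Γ) (W.symm (dl 1)))⟫_ℂ = ⟪dl 1, _⟫_ℂ
  rw [← hW1, W.symm_apply_apply, W.inner_map_map]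

end Crest.Agent.R134
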