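import Crest.Agent.R134.Flow

/-! # rid 134: the time-one map (task `Iter`) -/

set_option autoImplicit false

open Crest.Agent.R95 NormedSpace

namespace Crest.Agent.R134

variable {G A : Type*} [Group G] [CStarAlgebra A] {τ : Tr A} {δ : RG G →ₗ[ℝ] RG G}

/-- Second order Taylor estimate: `‖exp (s • y) - 1 - s • y‖ ≤ C s²` for `|s| ≤ 1` (tail of the
exponential series, `C = ∑ ‖y‖^k / k!` works). -/
theorem exp_taylor (y : A) : ∃ C : ℝ, ∀ s : ℝ, |s| ≤ 1 →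
    ‖exp (s • y) - 1 - s • y‖ ≤ C * s ^ 2 := by
  have hg : Summable fun n : ℕ => ‖((n + 2).factorial⁻¹ : ℝ) • y ^ (n + 2)‖ :=
    (summable_nat_add_iff (f := fun n : ℕ => ‖(n.factorial⁻¹ : ℝ) • y ^ n‖) 2).2
      (norm_expSeries_summable' (𝕂 := ℝ) y)
  refine ⟨∑' n : ℕ, ‖((n + 2).factorial⁻¹ : ℝ) • y ^ (n + 2)‖, fun s hs => ?_⟩
  have h1 := (hasSum_nat_add_iff' 2).2 (exp_series_hasSum_exp' (𝕂 := ℝ) (s • y))
  have e : exp (s • y) - ∑ i ∈ Finset.range 2, ((i.factorial⁻¹ : ℝ)) • (s • y) ^ i =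
      exp (s • y) - 1 - s • y := by
    simp [Finset.sum_range_succ, sub_sub]
  rw [e] at h1
  refine h1.norm_le_of_bounded (hg.hasSum.mul_right (s ^ 2)) fun n => ?_
  rw [smul_pow, smul_comm, norm_smul, mul_comm, norm_pow, Real.norm_eq_abs, pow_add |s|, sq_abs]
  exact mul_le_mul_of_nonneg_left
    (mul_le_of_le_one_left (sq_nonneg s) (pow_le_one₀ (abs_nonneg s) hs)) (norm_nonneg _)

theorem iter_step {π₀ π₁ : G →* A} (h₀ : Reg τ π₀) (f : G) (ψ : RG G) {e : A} {s C C' : ℝ}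
    (hs : 0 ≤ s) (h1 : ‖ev π₁ (sg f) - ev π₀ (sg f) - s • ev π₀ (δ (sg f))‖ ≤ C * s ^ 2)
    (h2 : ‖e - 1 - s • ev π₀ ψ‖ ≤ C' * s ^ 2) :
    τ.n (π₁ f - π₀ f * e) ≤ s * n2 (δ (sg f) - sg f * ψ) + (C + C') * s ^ 2 := by
  have e1 : π₁ f - π₀ f * e = (ev π₁ (sg f) - ev π₀ (sg f) - s • ev π₀ (δ (sg f))) +
      s • ev π₀ (δ (sg f) - sg f * ψ) - π₀ f * (e - 1 - s • ev π₀ ψ) := by
    simp only [ev_sg, map_sub, map_mul, smul_sub, mul_sub, mul_one, mul_smul_comm]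
    abel
  rw [e1]
  refine (map_sub_le_add _ _ _).trans ((add_le_add (map_add_le_add _ _ _) le_rfl).trans ?_)
  rw [n_real_smul, abs_of_nonneg hs, h₀.n_ev, τ.n_unitary_mul (h₀.unit f)]
  have a1 := (τ.n_le_norm _).trans h1
  have a2 := (τ.n_le_norm _).trans h2
  linarith

theorem iter_acc {u₀ u₁ v e : A} (he : e ∈ unitary A) {j : ℕ} {b : ℝ}
    (h0 : τ.n (u₀ - v * e ^ j) ≤ j * b) (h1 : τ.n (u₁ - u₀ * e) ≤ b) :
    τ.n (u₁ - v * e ^ (j + 1)) ≤ ((j + 1 : ℕ) : ℝ) * b := by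
  refine (τ.n_sub_le _ (u₀ * e) _).trans ?_
  rw [pow_succ, ← mul_assoc, ← sub_mul, τ.n_mul_unitary he]
  push_cast
  linarith

/-- **Time-one map.**  Proof. Take `s₀, C` from `flow_step`, `m` large, `s = 1 / m`, and iterate
`flow_step` `m` times: `π₀ = π`, `π_{j+1} = π_j'`.  All `π_j` are `Reg`, generate `π` (`Gens.trans`) and
`ev π_j x = ev π x` whenever `δ x = 0`.  Put `y = ev π ψ` (skew-adjoint by `Reg.star_ev`),
`e = exp (s • y)` (unitary, `exp_mem_unitary_of_mem_skewAdjoint`).  One step: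
`π_{j+1} f - π_j f * e = (π_{j+1} f - π_j f - s • ev π_j (δ f)) + s • ev π_j (δ f - f ψ)
  - π_j f * (e - 1 - s • y)` has `τ.n ≤ s * n2 (δ f - f ψ) + C' s²` (`Reg.n_ev`, `τ.n_le_norm`).
By induction `τ.n (π_j f - π f * e ^ j) ≤ j (s * n2 (δ f - f ψ) + C' s²)` (`τ.n_mul_unitary`), and
`e ^ m = exp y` (`exp_nsmul`).  The estimate for `a` is the same computation with `ψ = 0`. -/
theorem time_one (hδ : Der δ) {π : G →* A} (hπ : Reg τ π) (a f : G) {ψ : RG G} (hψ : δ ψ = 0)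
    (hψs : st ψ = -ψ) {ε : ℝ} (hε : 0 < ε) :
    ∃ π' : G →* A, Reg τ π' ∧ Gens π' π ∧ (∀ g, δ (sg g) = 0 → π' g = π g) ∧
      τ.n (π' a - π a) ≤ n2 (δ (sg a)) + ε ∧
      τ.n (π' f - π f * exp (ev π ψ)) ≤ n2 (δ (sg f) - sg f * ψ) + ε := by
  let _ : NormedAlgebra ℚ A := .restrictScalars ℚ ℂ A
  obtain ⟨s₀, hs₀, C, hC⟩ := flow_step (A := A) (τ := τ) hδ
  obtain ⟨C', hC'⟩ := exp_taylor (ev π ψ)
  obtain ⟨m, hm⟩ := exists_nat_ge (1 + 1 / s₀ + |C (sg a)| / ε + |C (sg f) + C'| / ε)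
  have p1 : 0 < 1 / s₀ := by positivity
  have p2 : 0 ≤ |C (sg a)| / ε := by positivity
  have p3 : 0 ≤ |C (sg f) + C'| / ε := by positivity
  have hm1 : (1 : ℝ) ≤ m := by linarith
  have hm0 : (0 : ℝ) < m := by linarith
  set s : ℝ := 1 / m with hsdef
  have hs : 0 < s := by positivity
  have hs1 : |s| ≤ 1 := by rw [abs_of_pos hs, hsdef, div_le_one hm0]; exact hm1
  have hs2 : |s| ≤ s₀ := by
    rw [abs_of_pos hs, hsdef]
    exact (one_div_le hm0 hs₀).2 (by linarith)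
  have hms : (m : ℝ) * s = 1 := by rw [hsdef]; field_simp
  have hsm : ∀ D : ℝ, |D| / ε ≤ m → D * s ≤ ε := fun D hD => by
    rw [div_le_iff₀ hε] at hD
    rw [hsdef, mul_one_div, div_le_iff₀ hm0]
    linarith [le_abs_self D]
  have hskew : s • ev π ψ ∈ skewAdjoint A := by
    rw [skewAdjoint.mem_iff, star_smul, hπ.star_ev, hψs, map_neg, star_trivial, smul_neg]
  have he := exp_mem_unitary_of_mem_skewAdjoint hskew
  have key : ∀ j : ℕ, ∃ π' : G →* A, Reg τ π' ∧ Gens π' π ∧ (∀ x, δ x = 0 → ev π' x = ev π x) ∧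
      τ.n (π' a - π a * 1 ^ j) ≤ j * (s * n2 (δ (sg a) - sg a * 0) + (C (sg a) + 0) * s ^ 2) ∧
      τ.n (π' f - π f * exp (s • ev π ψ) ^ j) ≤
        j * (s * n2 (δ (sg f) - sg f * ψ) + (C (sg f) + C') * s ^ 2) := by
    intro j
    induction j with
    | zero => exact ⟨π, hπ, Gens.refl π, fun _ _ => rfl, by simp, by simp⟩
    | succ j ih =>
      obtain ⟨π₀, r0, g0, f0, a0, b0⟩ := ih
      obtain ⟨π₁, r1, g1, f1, e1⟩ := hC π₀ r0 s hs2
      refine ⟨π₁, r1, g1.trans g0, fun x hx => (f1 x hx).trans (f0 x hx),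
        iter_acc (one_mem _) a0 (iter_step r0 a 0 hs.le (e1 _) (by simp)),
        iter_acc he b0 (iter_step r0 f ψ hs.le (e1 _) ?_)⟩
      rw [f0 ψ hψ]
      exact hC' s hs1
  obtain ⟨π', r, g, f', a', b'⟩ := key m
  refine ⟨π', r, g, fun x hx => by simpa using f' _ hx, ?_, ?_⟩
  · rw [one_pow, mul_one, mul_zero, sub_zero, add_zero] at a'
    have := hsm (C (sg a)) (by linarith)
    refine a'.trans ?_
    have e : (m : ℝ) * (s * n2 (δ (sg a)) + C (sg a) * s ^ 2) =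
        (m * s) * (n2 (δ (sg a)) + C (sg a) * s) := by ring
    rw [e, hms, one_mul]
    linarith
  · rw [← exp_nsmul, ← Nat.cast_smul_eq_nsmul ℝ, smul_smul, hms, one_smul] at b'
    have := hsm (C (sg f) + C') (by linarith)
    refine b'.trans ?_
    have e : (m : ℝ) * (s * n2 (δ (sg f) - sg f * ψ) + (C (sg f) + C') * s ^ 2) =
        (m * s) * (n2 (δ (sg f) - sg f * ψ) + (C (sg f) + C') * s) := by ring
    rw [e, hms, one_mul]
    linarith

end Crest.Agent.R134
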