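import Crest.Agent.R134.Basic

/-! # rid 134: an approximate logarithm of a Haar unitary (task `Log`) -/

set_option autoImplicit false

open Crest.Agent.R95 NormedSpace

namespace Crest.Agent.R134

namespace LogAux

open Complex
open scoped ComplexConjugate

/-- the coefficients -/
noncomputable def co (r : ℝ) (j : ℕ) : ℝ := (-1) ^ j * r ^ j / j

/-- the scalar trigonometric polynomial -/
noncomputable def ps (K : ℕ) (r : ℝ) (z : ℂ) : ℂ :=
  ∑ j ∈ Finset.range K, (co r j : ℂ) * (z ^ j - (star z) ^ j)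

theorem continuous_ps (K : ℕ) (r : ℝ) : Continuous (ps K r) := by
  unfold ps; fun_prop

theorem ps_eq (K : ℕ) (r : ℝ) (z : ℂ) :
    ps K r z = logTaylor K (r * conj z) - logTaylor K (r * z) := by
  simp only [ps, logTaylor, co, ← Finset.sum_sub_distrib, star_def]
  refine Finset.sum_congr rfl fun j _ => ?_
  push_cast
  ring

theorem one_add_ne {r : ℝ} (h0 : 0 ≤ r) (h1 : r < 1) {z : ℂ} (hz : ‖z‖ = 1) :
    1 + (r : ℂ) * z ≠ 0 := by
  intro h
  have : (r : ℂ) * z = -1 := by linear_combination h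
  have := congrArg norm this
  rw [norm_mul, hz, norm_real, Real.norm_of_nonneg h0, norm_neg, norm_one] at this
  linarith

theorem log_le {r : ℝ} (h0 : 0 ≤ r) (h1 : r < 1) (n : ℕ) {z : ℂ} (hz : ‖z‖ = 1) :
    ‖log (1 + r * z) - logTaylor (n + 1) (r * z)‖ ≤ r ^ (n + 1) / (1 - r) := by
  have e : ‖(r : ℂ) * z‖ = r := by rw [norm_mul, hz, norm_real, Real.norm_of_nonneg h0, mul_one]
  have := norm_log_sub_logTaylor_le n (z := r * z) (by rwa [e])
  rw [e] at this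
  refine this.trans ?_
  rw [← div_eq_mul_inv]
  exact div_le_self (div_nonneg (pow_nonneg h0 _) (by linarith)) (by simp)

theorem scalar {r : ℝ} (h0 : 0 ≤ r) (h1 : r < 1) (n : ℕ) (hn : 2 * (r ^ (n + 1) / (1 - r)) ≤ 1)
    {z : ℂ} (hz : ‖z‖ = 1) :
    ‖z * Complex.exp (ps (n + 1) r z) - 1 - ((1 - r : ℝ) : ℂ) * ((z - 1) * (1 + r * z)⁻¹)‖ ≤
      4 * (r ^ (n + 1) / (1 - r)) := by
  have hz' : ‖conj z‖ = 1 := by rwa [norm_conj]
  have n1 := one_add_ne h0 h1 hz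
  have n2 := one_add_ne h0 h1 hz'
  set w := log (1 + r * conj z) - log (1 + r * z) with hw
  have ew : Complex.exp w = (1 + r * conj z) / (1 + r * z) := by
    rw [hw, Complex.exp_sub, exp_log n1, exp_log n2]
  have nw : ‖Complex.exp w‖ = 1 := by
    have : (1 : ℂ) + r * conj z = conj (1 + r * z) := by simp
    rw [ew, norm_div, this, norm_conj, div_self (norm_ne_zero_iff.2 n1)]
  have hd : ‖ps (n + 1) r z - w‖ ≤ 2 * (r ^ (n + 1) / (1 - r)) := by
    have : ps (n + 1) r z - w = (log (1 + r * z) - logTaylor (n + 1) (r * z)) -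
        (log (1 + r * conj z) - logTaylor (n + 1) (r * conj z)) := by
      rw [ps_eq, hw]; ring
    rw [this]
    refine (norm_sub_le _ _).trans ?_
    linarith [log_le h0 h1 n hz, log_le h0 h1 n hz']
  have zz : z * conj z = 1 := by rw [mul_conj, normSq_eq_norm_sq, hz]; simp
  have e : z * Complex.exp (ps (n + 1) r z) - 1 - ((1 - r : ℝ) : ℂ) * ((z - 1) * (1 + r * z)⁻¹)
      = z * Complex.exp w * (Complex.exp (ps (n + 1) r z - w) - 1) := by
    rw [mul_sub, mul_assoc, ← Complex.exp_add, add_sub_cancel, mul_one, ew, sub_sub]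
    congr 1
    push_cast
    field_simp
    linear_combination (-r : ℂ) * zz
  rw [e, norm_mul, norm_mul, hz, nw, one_mul, one_mul]
  refine (norm_exp_sub_one_le (hd.trans hn)).trans ?_
  linarith

variable {A : Type*} [CStarAlgebra A] (τ : Tr A)

theorem n_resolvent {U R : A} (hU : U ∈ unitary A) (htr : ∀ m : ℕ, τ (U ^ (m + 1)) = 0) {r : ℝ}
    (h0 : 0 ≤ r) (h1 : r < 1) (hR : R + (r : ℂ) • (U * R) = 1) :
    τ.n R ^ 2 = 1 + r ^ 2 * τ.n R ^ 2 := by
  have rec1 : ∀ m : ℕ, τ (U ^ (m + 1) * R) = -(r : ℂ) * τ (U ^ (m + 1 + 1) * R) := by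
    intro m
    have := htr m
    rw [← mul_one (U ^ (m + 1)), ← hR, mul_add, mul_smul_comm, map_add, map_smul, ← mul_assoc,
      ← pow_succ, smul_eq_mul] at this
    linear_combination this
  have bd : ∀ k m : ℕ, ‖τ (U ^ (m + 1) * R)‖ ≤ r ^ k * ‖R‖ := by
    intro k
    induction k with
    | zero =>
      intro m
      rw [pow_zero, one_mul]
      refine (τ.norm_le_n _).trans ?_
      rw [τ.n_unitary_mul (pow_mem hU _)]
      exact τ.n_le_norm _
    | succ k ih =>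
      intro m
      rw [rec1, norm_mul, norm_neg, norm_real, Real.norm_of_nonneg h0, pow_succ' r, mul_assoc]
      exact mul_le_mul_of_nonneg_left (ih _) h0
  have z0 : τ (U * R) = 0 := by
    have := ge_of_tendsto' (by
      simpa using (tendsto_pow_atTop_nhds_zero_of_lt_one h0 h1).mul_const ‖R‖) fun k => bd k 0
    simpa using this
  have e : R = 1 - (r : ℂ) • (U * R) := eq_sub_of_add_eq hR
  conv_lhs => rw [e]
  rw [τ.n_sub_sq, τ.n_one, star_one, one_mul, map_smul, z0, map_smul_eq_mul, τ.n_unitary_mul hU,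
    norm_real, Real.norm_of_nonneg h0]
  simp [mul_pow]

theorem op_bound {U : A} (hU : U ∈ unitary A) (htr : ∀ m : ℕ, τ (U ^ (m + 1)) = 0) {r : ℝ}
    (h0 : 0 ≤ r) (h1 : r < 1) (n : ℕ) (hn : 2 * (r ^ (n + 1) / (1 - r)) ≤ 1) :
    τ.n (U * NormedSpace.exp (cfc (ps (n + 1) r) U) - 1) ≤
      4 * (r ^ (n + 1) / (1 - r)) + 2 * √(1 - r) := by
  have hN : IsStarNormal U := isStarNormal_of_mem_unitary hU
  have hsp : ∀ z ∈ spectrum ℂ U, ‖z‖ = 1 := fun z hz => by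
    simpa using spectrum.subset_circle_of_unitary hU hz
  have hps := continuous_ps (n + 1) r
  have hinv : ContinuousOn (fun z : ℂ => (1 + (r : ℂ) * z)⁻¹) (spectrum ℂ U) :=
    ContinuousOn.inv₀ (by fun_prop) fun z hz => one_add_ne h0 h1 (hsp z hz)
  have c0 : ContinuousOn (fun z : ℂ => z) (spectrum ℂ U) := continuousOn_id' _
  have c3 : ContinuousOn (fun z : ℂ => z * (1 + (r : ℂ) * z)⁻¹) (spectrum ℂ U) := c0.mul hinv
  set R := cfc (fun z : ℂ => (1 + (r : ℂ) * z)⁻¹) U with hRdef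
  have hUR : U * R = cfc (fun z : ℂ => z * (1 + (r : ℂ) * z)⁻¹) U := by
    rw [cfc_mul _ _ U c0 hinv, cfc_id' ℂ U]
  have hR : R + (r : ℂ) • (U * R) = 1 := by
    have c4 : ContinuousOn (fun z : ℂ => (r : ℂ) • (z * (1 + (r : ℂ) * z)⁻¹)) (spectrum ℂ U) :=
      c3.const_smul (r : ℂ)
    rw [hUR, ← cfc_smul _ _ U c3, hRdef, ← cfc_add U _ _ hinv c4, ← cfc_one ℂ U]
    refine cfc_congr fun z hz => ?_
    have := one_add_ne h0 h1 (hsp z hz)
    simp only [smul_eq_mul, Pi.one_apply]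
    field_simp
  have hexp : NormedSpace.exp (cfc (ps (n + 1) r) U) =
      cfc (fun z => Complex.exp (ps (n + 1) r z)) U := by
    rw [← CFC.complex_exp_eq_normedSpace_exp, ← cfc_comp' Complex.exp (ps (n + 1) r) U]
  have c1 : ContinuousOn (fun z => Complex.exp (ps (n + 1) r z)) (spectrum ℂ U) := by fun_prop
  have c2 : ContinuousOn (fun z : ℂ => z - 1) (spectrum ℂ U) := by fun_prop
  have hE : cfc (fun z => z * Complex.exp (ps (n + 1) r z) - 1 -
        ((1 - r : ℝ) : ℂ) * ((z - 1) * (1 + r * z)⁻¹)) U =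
      U * NormedSpace.exp (cfc (ps (n + 1) r) U) - 1 - ((1 - r : ℝ) : ℂ) • ((U - 1) * R) := by
    have c5 : ContinuousOn (fun z : ℂ => z * Complex.exp (ps (n + 1) r z)) (spectrum ℂ U) :=
      c0.mul c1
    have c6 : ContinuousOn (fun z : ℂ => z * Complex.exp (ps (n + 1) r z) - 1) (spectrum ℂ U) :=
      c5.sub continuousOn_const
    have c7 : ContinuousOn (fun z : ℂ => (z - 1) * (1 + (r : ℂ) * z)⁻¹) (spectrum ℂ U) :=
      c2.mul hinv
    have c8 : ContinuousOn (fun z : ℂ => ((1 - r : ℝ) : ℂ) * ((z - 1) * (1 + (r : ℂ) * z)⁻¹))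
        (spectrum ℂ U) := continuousOn_const.mul c7
    have c9 : ContinuousOn (fun _ : ℂ => (1 : ℂ)) (spectrum ℂ U) := continuousOn_const
    rw [cfc_sub _ _ U c6 c8, cfc_sub _ _ U c5 c9, cfc_mul _ _ U c0 c1, cfc_id' ℂ U,
      cfc_const_one ℂ U, cfc_const_mul _ _ U c7, cfc_mul _ _ U c2 hinv,
      cfc_sub _ _ U c0 c9, cfc_id' ℂ U, cfc_const_one ℂ U, hexp]
  have hEn := norm_cfc_le (a := U) (by
    have : 0 < 1 - r := by linarith
    positivity) fun z hz => scalar h0 h1 n hn (hsp z hz)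
  rw [hE] at hEn
  have hRn := n_resolvent τ hU htr h0 h1 hR
  have hs : (1 - r) * τ.n R ≤ √(1 - r) := by
    refine Real.le_sqrt_of_sq_le ?_
    have h2 : (1 - r) * τ.n R ^ 2 ≤ 1 := by nlinarith [sq_nonneg (τ.n R), mul_nonneg h0 (sub_nonneg.2 h1.le)]
    calc ((1 - r) * τ.n R) ^ 2 = (1 - r) * ((1 - r) * τ.n R ^ 2) := by ring
      _ ≤ (1 - r) * 1 := mul_le_mul_of_nonneg_left h2 (by linarith)
      _ = 1 - r := mul_one _
  have h3 : τ.n ((U - 1) * R) ≤ 2 * τ.n R := by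
    rw [sub_mul, one_mul]
    refine (map_sub_le_add _ _ _).trans ?_
    rw [τ.n_unitary_mul hU]; linarith
  have h4 : τ.n (((1 - r : ℝ) : ℂ) • ((U - 1) * R)) ≤ 2 * √(1 - r) := by
    rw [map_smul_eq_mul, norm_real, Real.norm_of_nonneg (by linarith)]
    nlinarith
  have h5 := map_add_le_add τ.n
    (U * NormedSpace.exp (cfc (ps (n + 1) r) U) - 1 - ((1 - r : ℝ) : ℂ) • ((U - 1) * R))
    (((1 - r : ℝ) : ℂ) • ((U - 1) * R))
  rw [sub_add_cancel] at h5
  linarith [τ.n_le_norm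
    (U * NormedSpace.exp (cfc (ps (n + 1) r) U) - 1 - ((1 - r : ℝ) : ℂ) • ((U - 1) * R))]

variable {τ}

theorem ev_psi {G : Type*} [Group G] {π : G →* A} (h : Reg τ π) (K : ℕ) (r : ℝ) (g : G) :
    ev π (psi K (co r) g) = cfc (ps K r) (π g) := by
  have hN : IsStarNormal (π g) := isStarNormal_of_mem_unitary (h.unit g)
  have : ps K r = ∑ j ∈ Finset.range K, fun z : ℂ => (co r j : ℂ) * (z ^ j - (star z) ^ j) := by
    funext z; simp [ps]
  rw [this, cfc_sum _ (π g) _ (fun j _ => by fun_prop), psi, map_sum]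
  refine Finset.sum_congr rfl fun j _ => ?_
  rw [cfc_const_mul _ _ (π g), cfc_sub _ _ (π g), cfc_pow_id (R := ℂ) (π g),
    cfc_pow (fun z : ℂ => star z) j (π g), cfc_star_id (R := ℂ) (π g), map_smul, map_sub, ev_sg, ev_sg,
    ← h.star, map_pow, star_pow, Complex.coe_smul]

end LogAux

variable {G A : Type*} [Group G] [CStarAlgebra A] {τ : Tr A}

/-- **Approximate logarithm.**  Proof. Let `0 < r < 1`, `c j = (-1)^j r^j / j` (so `c 0 = 0`), `U = π g`
(unitary, spectrum in the unit circle, `spectrum.subset_circle_of_unitary`).  With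
`ψ z = ∑ j < K, c j (z^j - conj z^j) = logTaylor K (r conj z) - logTaylor K (r z)` one has
`ev π (psi K c g) = cfc ψ U`, `exp (cfc ψ U) = cfc (exp ∘ ψ) U` (`CFC.complex_exp_eq_normedSpace_exp`,
`cfc_comp'`).  For `‖z‖ = 1`: `w z = log (1 + r conj z) - log (1 + r z)` has
`exp (w z) = (1 + r conj z) / (1 + r z)`, `‖ψ z - w z‖ ≤ 2 r^K / (1 - r)`
(`Complex.norm_log_sub_logTaylor_le`), `‖exp (w z)‖ = 1` and `‖exp (ψ z - w z) - 1‖ ≤ 2 ‖ψ z - w z‖`
(`Complex.norm_exp_sub_one_le`), and `z exp (w z) - 1 = (1 - r) (z - 1) / (1 + r z)`.  So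
`U exp (ψ U) - 1 = E + (1 - r) • ((U - 1) R)` with `‖E‖ ≤ 4 r^K / (1 - r)` (`norm_cfc_le`) and
`R = cfc (fun z => (1 + r z)⁻¹) U`, `R = 1 - r • (U R)`.  For `m ≥ 1`, `τ (U^m R) = - r τ (U^(m+1) R)`, so
`‖τ (U R)‖ ≤ r^k ‖R‖` for all `k`, `τ (U R) = 0`, and `τ.n R ^ 2 = 1 + r² τ.n R ^ 2` (`n_sub_sq`).
Thus `τ.n ((1 - r) • ((U - 1) R)) ≤ 2 (1 - r) / √(1 - r²) ≤ 2 √(1 - r)`. -/
theorem exists_log {ε : ℝ} (hε : 0 < ε) : ∃ (K : ℕ) (c : ℕ → ℝ), ∀ π : G →* A, Reg τ π →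
    ∀ g : G, (∀ m : ℕ, g ^ (m + 1) ≠ 1) → τ.n (π g * exp (ev π (psi K c g)) - 1) ≤ ε := by
  obtain ⟨s, hs0, hs1, hsε⟩ : ∃ s : ℝ, 0 < s ∧ s ≤ 1 ∧ √s ≤ ε / 4 :=
    ⟨min 1 ((ε / 4) ^ 2), by positivity, min_le_left _ _,
      Real.sqrt_le_iff.2 ⟨by positivity, min_le_right _ _⟩⟩
  have h0 : 0 ≤ 1 - s := by linarith
  have h1 : 1 - s < 1 := by linarith
  obtain ⟨n, hn⟩ := exists_pow_lt_of_lt_one (x := min (1 / 2) (ε / 8) * s) (by positivity) h1
  have hn' : (1 - s) ^ (n + 1) / (1 - (1 - s)) ≤ min (1 / 2) (ε / 8) := by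
    rw [sub_sub_cancel, div_le_iff₀ hs0]
    exact (pow_le_pow_of_le_one h0 h1.le (Nat.le_succ n)).trans hn.le
  refine ⟨n + 1, LogAux.co (1 - s), fun π h g hg => ?_⟩
  rw [LogAux.ev_psi h]
  have := LogAux.op_bound τ (h.unit g) (fun m => by rw [← map_pow]; exact h.tr _ (hg m)) h0 h1 n
    (by linarith [min_le_left (1 / 2 : ℝ) (ε / 8)])
  rw [sub_sub_cancel] at this hn'
  linarith [min_le_right (1 / 2 : ℝ) (ε / 8)]

end Crest.Agent.R134
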