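import Crest.Agent.R134.Baire
import Crest.Agent.R134.Iso

/-! # rid 134: `L(F_n) ≅ L(F_{n+1})` for `n ≥ 2` -/

set_option autoImplicit false

open Crest.Agent.R95 Crest.OpAlg

namespace Crest.Agent.R134

theorem main (n : ℕ) (hn : 2 ≤ n) [DecidableEq (FreeGroup (Fin n))]
    [DecidableEq (FreeGroup (Fin (n + 1)))] :
    ∃ Φ : LG (FreeGroup (Fin n)) ≃⋆ₐ[ℂ] LG (FreeGroup (Fin (n + 1))), ∀ x : LG (FreeGroup (Fin n)),
      groupTrace _ ((Φ x : LG (FreeGroup (Fin (n + 1)))) :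
          ltwo (FreeGroup (Fin (n + 1))) →L[ℂ] ltwo (FreeGroup (Fin (n + 1)))) =
        groupTrace _ (x : ltwo (FreeGroup (Fin n)) →L[ℂ] ltwo (FreeGroup (Fin n))) := by
  obtain ⟨τ, lam, h⟩ := exists_gTr (FreeGroup (Fin (n + 1)))
  let e : FreeGroup (Option (Fin n)) ≃* FreeGroup (Fin (n + 1)) :=
    FreeGroup.freeGroupCongr (finSuccEquiv n).symm
  have hab : (⟨0, by omega⟩ : Fin n) ≠ ⟨1, by omega⟩ := by simp
  obtain ⟨ρ, hρ, hgen⟩ := exists_gen h.isW hab (h.reg.comp (φ := e.toMonoidHom) e.injective)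
  refine iso_of_gen h hρ fun g ε hε => ?_
  simpa using hgen (e.symm g) ε hε

end Crest.Agent.R134
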