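import Crest.Agent.R134.Tree

/-! # rid 134: a word whose Fox derivative is tree-like (task `Pong`) -/

set_option autoImplicit false

namespace Crest.Agent.R134

variable {α : Type*}

namespace PongAux

/-- normal forms -/
abbrev S := List ℤ × ℤ

/-- the involution -/
def A : S → S
  | ([], m) => if m = 0 then ([], 0) else ([m], 0)
  | (n :: L, m) => if m = 0 then (if n = 0 then (n :: L, 0) else (L, n)) else (m :: n :: L, 0)

theorem A_ne (L : List ℤ) {m : ℤ} (h : m ≠ 0) : A (L, m) = (m :: L, 0) := by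
  cases L <;> simp [A, h]

theorem A_cons (L : List ℤ) {n : ℤ} (h : n ≠ 0) : A (n :: L, 0) = (L, n) := by
  simp [A, h]

theorem A_inv : Function.Involutive A := by
  rintro ⟨L, m⟩
  by_cases h : m = 0
  · subst h
    cases L with
    | nil => simp [A]
    | cons n L =>
      by_cases h : n = 0
      · simp [A, h]
      · rw [A_cons L h, A_ne L h]
  · rw [A_ne L h, A_cons L h]

/-- the translations -/
def B (n : ℤ) : Equiv.Perm S := Equiv.prodCongr (Equiv.refl _) (Equiv.addRight n)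

theorem B_pow (n : ℕ) (ξ : S) : (B (-1) ^ n) ξ = (ξ.1, ξ.2 - n) := by
  induction n with
  | zero => simp
  | succ n ih =>
    rw [pow_succ', Equiv.Perm.mul_apply, ih]
    simp only [B, Equiv.prodCongr_apply, Equiv.coe_refl, Equiv.coe_addRight, Prod.map_apply, id,
      Prod.mk.injEq, true_and]
    push_cast
    ring

/-- the sets of the ping-pong -/
def T (p : ℕ) : Set S := {ξ | (∃ L, ξ = ((2 * p - 1 : ℤ) :: L, 0)) ∨ ξ.2 = -(2 * p + 1)}

theorem T_disj {p q : ℕ} {ξ : S} (hp : ξ ∈ T p) (hq : ξ ∈ T q) : p = q := by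
  rcases hp with ⟨L, rfl⟩ | hp <;> rcases hq with ⟨L', hq⟩ | hq
  · simp only [Prod.mk.injEq, List.cons.injEq] at hq
    omega
  · simp only [] at hq
    omega
  · rw [hq] at hp
    simp only [] at hp
    omega
  · omega

section
variable {G : Type*} [Group G] (φ : G →* Equiv.Perm S) {r Q : ℕ → G}
  (hQ : ∀ k, Q (k + 1) = Q k * r k) (hr : ∀ k ξ, φ (r k) ξ = ((A ξ).1, (A ξ).2 - (2 * k + 1)))

/-- the right action -/
def act (ξ : S) (g : G) : S := φ g⁻¹ ξ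

theorem act_mul (ξ : S) (g h : G) : act φ ξ (g * h) = act φ (act φ ξ g) h := by
  simp [act]

include hr in
theorem act_r (k : ℕ) {ξ : S} (h : ξ.2 + (2 * k + 1) ≠ 0) :
    act φ ξ (r k) = ((ξ.2 + (2 * k + 1)) :: ξ.1, 0) := by
  rw [act, map_inv, Equiv.Perm.inv_eq_iff_eq, hr, A_cons _ h]
  simp

include hr in
theorem act_r_inv (k : ℕ) (ξ : S) : act φ ξ (r k)⁻¹ = ((A ξ).1, (A ξ).2 - (2 * k + 1)) := by
  rw [act, inv_inv, hr]

theorem ne_of_T {p i : ℕ} {ξ : S} (h : ξ ∈ T p) (hp : p ≠ i) : ξ.2 + (2 * i + 1) ≠ 0 := by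
  rcases h with ⟨L, rfl⟩ | h
  · simp only []
    omega
  · omega

include hQ hr in
theorem fwd {p i : ℕ} {ξ : S} (h : ξ ∈ T p) (hp : p ≠ i) (j : ℕ) (hj : i + 1 ≤ j) :
    (act φ ξ ((Q i)⁻¹ * Q j)).2 = 0 ∧ (i + 2 ≤ j → act φ ξ ((Q i)⁻¹ * Q j) ∈ T j) := by
  induction j, hj using Nat.le_induction with
  | base =>
    rw [hQ, inv_mul_cancel_left, act_r φ hr i (ne_of_T h hp)]
    exact ⟨rfl, fun h => by omega⟩
  | succ j hj ih =>
    rw [hQ, ← mul_assoc, act_mul, act_r φ hr j (by rw [ih.1]; omega), ih.1]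
    refine ⟨rfl, fun _ => Or.inl ⟨(act φ ξ ((Q i)⁻¹ * Q j)).1, ?_⟩⟩
    congr 2
    push_cast
    ring

include hQ hr in
theorem bwd {p i : ℕ} {ξ : S} (h : ξ ∈ T p) (hp : p ≠ i) (n : ℕ) : ∀ j, j + n + 1 = i →
    (act φ ξ ((Q i)⁻¹ * Q j)).2 ≠ 0 ∧ (1 ≤ n → act φ ξ ((Q i)⁻¹ * Q j) ∈ T j) := by
  have e : ∀ j, (Q i)⁻¹ * Q j = (Q i)⁻¹ * Q (j + 1) * (r j)⁻¹ := fun j => by
    rw [hQ, mul_assoc, mul_inv_cancel_right]
  induction n with
  | zero =>
    intro j hj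
    rw [e, hj, inv_mul_cancel, one_mul, act_r_inv φ hr]
    refine ⟨?_, fun h => by omega⟩
    rcases h with ⟨L, rfl⟩ | h
    · rw [A_cons L (by omega)]
      simp only []
      omega
    · obtain ⟨L, m⟩ := ξ
      rw [A_ne L (by simp only [] at h; omega)]
      simp only []
      omega
  | succ n ih =>
    intro j hj
    have h1 := (ih (j + 1) (by omega)).1
    rw [e, act_mul, act_r_inv φ hr]
    generalize act φ ξ ((Q i)⁻¹ * Q (j + 1)) = η at h1 ⊢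
    obtain ⟨L, m⟩ := η
    rw [A_ne L h1]
    exact ⟨by simp only []; omega, fun _ => Or.inr (by simp)⟩

include hQ hr in
theorem H1 {p i j : ℕ} {ξ : S} (h : ξ ∈ T p) (hp : p ≠ i) (hij : i + 2 ≤ j ∨ j + 2 ≤ i) :
    act φ ξ ((Q i)⁻¹ * Q j) ∈ T j := by
  rcases hij with hij | hij
  · exact (fwd φ hQ hr h hp j (by omega)).2 hij
  · exact (bwd φ hQ hr h hp (i - j - 1) j (by omega)).2 (by omega)

include hQ hr in
theorem H2 {p p' i : ℕ} {ξ : S} (h : ξ ∈ T p) (hp : p ≠ i)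
    (h' : act φ ξ ((Q i)⁻¹ * Q (i + 1)) ∈ T p') : p' = i + 1 := by
  rw [hQ, inv_mul_cancel_left, act_r φ hr i (ne_of_T h hp)] at h'
  rcases h' with ⟨L', h'⟩ | h'
  · simp only [Prod.mk.injEq, List.cons.injEq] at h'
    rcases h with ⟨L, rfl⟩ | h
    · simp only [] at h'
      omega
    · omega
  · simp only [] at h'
    omega

include hQ hr in
theorem tree (N : ℕ) : ∃ X Y : ℕ → Set G, Tree N (fun i => (Q (i + 1))⁻¹ * Q (N + 3)) X Y := by
  obtain ⟨ξ₀, h₀⟩ : ∃ ξ₀, ξ₀ ∈ T (N + 4) := ⟨([], _), Or.inr rfl⟩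
  have hinv : ∀ j < N, act φ ξ₀ ((Q (j + 1))⁻¹ * Q (N + 3))⁻¹ ∈ T (j + 1) := fun j hj => by
    rw [mul_inv_rev, inv_inv]
    exact H1 φ hQ hr h₀ (by omega) (by omega)
  have e : ∀ (g : G) (i j : ℕ), act φ ξ₀ (g * ((Q j)⁻¹ * Q (N + 3))⁻¹) =
      act φ (act φ ξ₀ (g * ((Q i)⁻¹ * Q (N + 3))⁻¹)) ((Q i)⁻¹ * Q j) := fun g i j => by
    rw [← act_mul]
    congr 1
    group
  refine ⟨fun j => {g | act φ ξ₀ g ∈ T (j + 1)},
    fun i => {g | ∃ p ≠ i + 1, act φ ξ₀ (g * ((Q (i + 1))⁻¹ * Q (N + 3))⁻¹) ∈ T p},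
    fun j _ j' _ g h h' => Nat.succ_injective (T_disj h h'), ?_, ?_, hinv, ?_, ?_⟩
  · rintro i - i' - g ⟨p, hp, h⟩ ⟨p', hp', h'⟩
    by_contra hne
    by_cases h1 : i' = i + 1
    · subst h1
      rw [e g (i + 1)] at h'
      exact hp' (H2 φ hQ hr h hp h')
    by_cases h2 : i = i' + 1
    · subst h2
      rw [e g (i' + 1)] at h
      exact hp (H2 φ hQ hr h' hp' h)
    rw [e g (i + 1)] at h'
    exact hp' (T_disj h' (H1 φ hQ hr h hp (by omega)))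
  · rintro i hi ⟨p, hp, h⟩
    rw [one_mul] at h
    exact hp (T_disj h (hinv i hi))
  · intro j _ i _ hij g hg
    exact ⟨j + 1, by omega, by rwa [mul_inv_cancel_right]⟩
  · rintro i - j - hij g ⟨p, hp, h⟩
    change act φ ξ₀ _ ∈ T _
    rw [e g (i + 1)]
    exact H1 φ hQ hr h hp (by omega)

end

end PongAux

open PongAux in
/-- **Ping-pong.**  Proof. `r k = of b ^ (2 k + 1) * of a`, `Q 0 = 1`, `Q (k+1) = Q k * r k`, `f = Q N`,
`M = N + 3`, `P i = (Q (i+1))⁻¹ * Q M`, `t = (Q N)⁻¹ * Q M`.  From `Fox`: `D 1 = 0`, `D (of b ^ n) = 0`,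
`D (r k) = 1`, so `D (Q k) = ∑ i < k, sg ((Q (i+1))⁻¹ * Q k)` by induction, which gives the formula.
States: `S = List ℤ × ℤ` (normal forms in `ℤ/2 * ℤ`).  `B (L, m) = (L, m + 1)`; the involution `A`:
`A (L, m) = (m :: L, 0)` if `m ≠ 0`; `A (n :: L, 0) = (L, n)` if `n ≠ 0`; `A` fixes the other states
(`Function.Involutive.toPerm`).  `φ = FreeGroup.lift` into `Equiv.Perm S` with `φ (of a) = A`,
`φ (of b) = B⁻¹`, other generators trivial; `ξ · g = φ g⁻¹ ξ` is a right action with `ξ · a = ξ · a⁻¹ = A ξ`,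
`(L, m) · b^n = (L, m + n)`.  For a position `p : ℕ` let
`T p = {(n :: L, 0) | n = 2 p - 1} ∪ {(L, m) | m = -(2 p + 1)}` (pairwise disjoint).  One letter:
* `(L, m) · r k = ((m + 2k + 1) :: L, 0)` if `m + 2k + 1 ≠ 0`; this holds for `ξ ∈ T p`, `p ≠ k`, and for
  all states with `m = 0`, where the result lies in `T (k+1)`;
* `ξ · (r k)⁻¹ = (A ξ) · b^{-(2k+1)}`; if `ξ = (L, m)`, `m ≠ 0`, the result `(m :: L, -(2k+1))` lies in `T k`
  and has second coordinate `≠ 0`; if `ξ = ((2p-1) :: L, 0)`, `p ≠ k + 1`, the result is `(L, 2p - 2k - 2)`,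
  second coordinate `≠ 0`.
Hence (H1): `ξ ∈ T p`, `p ≠ i`, `i + 2 ≤ j ∨ j + 2 ≤ i` imply `ξ · ((Q i)⁻¹ * Q j) ∈ T j`
(`(Q i)⁻¹ * Q j = r i ⋯ r (j-1)` or `(r (i-1))⁻¹ ⋯ (r j)⁻¹`; induct on `|i - j|`), and (H2): if `ξ ∈ T p`,
`p ≠ i`, `ξ · r i ∈ T p'` then `p' = i + 1` (parity: for `ξ = (L, -(2p+1))` the new head `2i - 2p` is even).
With `ξ₀ = ([], -(2 (M+1) + 1)) ∈ T (M+1)` take `X j = {g | ξ₀ · g ∈ T (j+1)}` and
`Y i = {g | ∃ p ≠ i + 1, ξ₀ · (g * (P i)⁻¹) ∈ T p}`; note `P i * (P j)⁻¹ = (Q (i+1))⁻¹ * Q (j+1)` and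
`(P j)⁻¹ = (Q M)⁻¹ * Q (j+1)`. -/
theorem exists_pong {a b : α} (hab : a ≠ b) {D : FreeGroup α → RG (FreeGroup α)} (hD : Fox a D)
    (N : ℕ) : ∃ (f t : FreeGroup α) (P : ℕ → FreeGroup α) (X Y : ℕ → Set (FreeGroup α)),
      D f * sg t = ∑ i ∈ Finset.range N, sg (P i) ∧ Tree N P X Y := by
  classical
  let r : ℕ → FreeGroup α := fun k => FreeGroup.of b ^ (2 * k + 1) * FreeGroup.of a
  let Q : ℕ → FreeGroup α := fun k => Nat.rec 1 (fun k q => q * r k) k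
  have hQ : ∀ k, Q (k + 1) = Q k * r k := fun _ => rfl
  let φ : FreeGroup α →* Equiv.Perm S :=
    FreeGroup.lift fun i => if i = a then A_inv.toPerm A else B (-1)
  have hr : ∀ k ξ, φ (r k) ξ = ((A ξ).1, (A ξ).2 - (2 * k + 1)) := fun k ξ => by
    simp only [r, φ, map_mul, map_pow, FreeGroup.lift_apply_of, if_neg hab.symm, if_true,
      Equiv.Perm.mul_apply, B_pow, Function.Involutive.coe_toPerm]
    push_cast
    rfl
  have h1 : D 1 = 0 := by simpa using hD.mul 1 1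
  have hb : ∀ n, D (FreeGroup.of b ^ n) = 0 := fun n => by
    induction n with
    | zero => exact h1
    | succ n ih => rw [pow_succ, hD.mul, ih, hD.other b hab.symm, zero_mul, add_zero]
  have hDQ : ∀ k, D (Q k) = ∑ i ∈ Finset.range k, sg ((Q (i + 1))⁻¹ * Q k) := fun k => by
    induction k with
    | zero => exact h1
    | succ k ih =>
      rw [Finset.sum_range_succ, inv_mul_cancel, map_one, hQ, hD.mul, ih, Finset.sum_mul]
      congr 1
      · simp only [← map_mul, mul_assoc]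
      · rw [hD.mul, hb, zero_mul, zero_add, hD.self]
  obtain ⟨X, Y, hT⟩ := tree φ hQ hr N
  refine ⟨Q N, (Q N)⁻¹ * Q (N + 3), _, X, Y, ?_, hT⟩
  rw [hDQ, Finset.sum_mul]
  refine Finset.sum_congr rfl fun i _ => ?_
  rw [← map_mul, mul_assoc, mul_inv_cancel_left]

theorem exists_fox_inverse {a b : α} (hab : a ≠ b) {D : FreeGroup α → RG (FreeGroup α)}
    (hD : Fox a D) {ε : ℝ} (hε : 0 < ε) :
    ∃ (f : FreeGroup α) (x : RG (FreeGroup α)), n2 x ≤ ε ∧ n2 (x * D f - 1) ≤ ε := by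
  obtain ⟨N, hN⟩ := tree_inverse (Γ := FreeGroup α) hε
  obtain ⟨f, t, P, X, Y, hf, hT⟩ := exists_pong hab hD N
  obtain ⟨x, hx, hx'⟩ := hN P X Y hT
  refine ⟨f, sg t * x, by rwa [n2_sg_mul], ?_⟩
  have e : sg t * x * D f - 1 = sg t * ((x * (D f * sg t) - 1) * sg t⁻¹) := by
    rw [sub_mul, mul_sub, one_mul, sg_mul_inv, mul_assoc x, mul_assoc (D f), sg_mul_inv, mul_one,
      mul_assoc]
  rwa [e, n2_sg_mul, n2_mul_sg, hf]

end Crest.Agent.R134
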