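import Crest.Agent.R134.Iter
import Crest.Agent.R134.Der
import Crest.Agent.R134.Pong
import Crest.Agent.R134.Log

/-! # rid 134: absorbing the last generator -/

set_option autoImplicit false

open Crest.Agent.R95 NormedSpace

namespace Crest.Agent.R134

variable {α A : Type*} [CStarAlgebra A] {τ : Tr A}

/-- the endomorphism `u ↦ w` fixing the other generators -/
def nu (w : FreeGroup (Option α)) : FreeGroup (Option α) →* FreeGroup (Option α) :=
  FreeGroup.lift fun o => o.elim w fun i => FreeGroup.of (some i)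

theorem nu_uu (w : FreeGroup (Option α)) : nu w (uu α) = w := by simp [nu, uu]

theorem nu_some (w : FreeGroup (Option α)) (i : α) :
    nu w (FreeGroup.of (some i)) = FreeGroup.of (some i) := by simp [nu]

theorem nu_inc (w : FreeGroup (Option α)) (g : FreeGroup α) : nu w (inc g) = inc g := by
  have : (nu w).comp inc = inc := by
    ext i; simp [nu_some]
  exact DFunLike.congr_fun this g

theorem nu_nu {w w' : FreeGroup (Option α)} (h : nu w w' = uu α) (g : FreeGroup (Option α)) :
    nu w (nu w' g) = g := by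
  have : (nu w).comp (nu w') = MonoidHom.id _ := by
    ext o
    cases o with
    | none => exact (congrArg (nu w) (nu_uu w')).trans h
    | some i => simp [nu_some]
  exact DFunLike.congr_fun this g

theorem uu_pow_ne_one (m : ℕ) : uu α ^ (m + 1) ≠ 1 := by
  classical
  intro h
  have := congrArg FreeGroup.norm h
  rw [uu, FreeGroup.norm_of_pow, FreeGroup.norm_one] at this
  omega

theorem step {a b : α} (hab : a ≠ b) {π : FreeGroup (Option α) →* A} (hπ : Reg τ π) {ε : ℝ}
    (hε : 0 < ε) : ∃ (π' : FreeGroup (Option α) →* A) (f : FreeGroup α), Reg τ π' ∧ Gens π' π ∧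
      (∀ i, τ.n (π' (FreeGroup.of (some i)) - π (FreeGroup.of (some i))) ≤ ε) ∧
      τ.n (π' (inc f) - π (uu α)) ≤ ε := by
  obtain ⟨K, c, hlog⟩ := exists_log (G := FreeGroup (Option α)) (τ := τ) (show 0 < ε / 4 by positivity)
  obtain ⟨D, hD⟩ := exists_fox a
  set L : ℝ := 2 * ∑ j ∈ Finset.range K, |c j| with hL
  have hL0 : 0 ≤ L := mul_nonneg zero_le_two (Finset.sum_nonneg fun _ _ => abs_nonneg _)
  obtain ⟨f, x, hx, hxf⟩ := exists_fox_inverse hab hD (show 0 < ε / (4 * (L + 1)) by positivity)
  have hLε : L * (ε / (4 * (L + 1))) ≤ ε / 4 := by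
    rw [mul_div_assoc', div_le_div_iff₀ (by positivity) (by positivity)]
    nlinarith
  obtain ⟨δ, hδ, hδ0, hδψ, hδn⟩ := exists_der hD x K c
  set w : FreeGroup (Option α) := (uu α)⁻¹ * inc f with hw
  have h1 : nu w (inc f * (uu α)⁻¹) = uu α := by
    rw [map_mul, map_inv, nu_inc, nu_uu, hw]; group
  have h2 : nu (inc f * (uu α)⁻¹) w = uu α := by
    rw [hw, map_mul, map_inv, nu_inc, nu_uu]; group
  have hinj : Function.Injective (nu w) := Function.LeftInverse.injective (nu_nu h2)
  have hρ : Reg τ (π.comp (nu w)) := hπ.comp hinj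
  have hgen : Gens (π.comp (nu w)) π := fun g => by
    have := Gens.refl (π.comp (nu w)) (nu (inc f * (uu α)⁻¹) g)
    rwa [MonoidHom.comp_apply, nu_nu h1] at this
  obtain ⟨π', hπ', hg', hfix, ha, hf⟩ := time_one hδ hρ (FreeGroup.of (some a)) (inc f) hδψ
    (st_psi K c _) (show 0 < ε / 4 by positivity)
  refine ⟨π', f, hπ', hg'.trans hgen, fun i => ?_, ?_⟩
  · by_cases hi : i = a
    · subst hi
      have := hδn (FreeGroup.of i) 0
      rw [zero_smul, zero_smul, sub_zero, sub_zero, hD.self, mul_one, inc_of] at this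
      rw [MonoidHom.comp_apply, nu_some] at ha
      have h3 := mul_le_mul_of_nonneg_left hx hL0
      linarith
    · rw [hfix _ (hδ0 _ (by simpa using hi)), MonoidHom.comp_apply, nu_some, sub_self, map_zero]
      exact hε.le
  · have h3 := hδn f 1
    rw [one_smul, one_smul] at h3
    have h4 := mul_le_mul_of_nonneg_left hxf hL0
    have h5 := hlog _ hρ (uu α) uu_pow_ne_one
    have h6 := τ.n_sub_le (π' (inc f))
      (π.comp (nu w) (inc f) * exp (ev (π.comp (nu w)) (psi K c (uu α)))) (π (uu α))
    have e : π.comp (nu w) (inc f) * exp (ev (π.comp (nu w)) (psi K c (uu α))) - π (uu α) =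
        π (uu α) * (π.comp (nu w) (uu α) * exp (ev (π.comp (nu w)) (psi K c (uu α))) - 1) := by
      rw [mul_sub, mul_one, ← mul_assoc, MonoidHom.comp_apply, MonoidHom.comp_apply, nu_inc, nu_uu,
        ← map_mul, hw, mul_inv_cancel_left]
    rw [e, τ.n_unitary_mul (hπ.unit _)] at h6
    linarith

end Crest.Agent.R134
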