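import Crest.Agent.R134.Basic

/-! # rid 134: approximate inverses on a tree (task `Tree`) -/

set_option autoImplicit false

namespace Crest.Agent.R134

variable {Γ : Type*} [Group Γ]

/-- Ping-pong data: `X j` = elements "ending in `(P j)⁻¹`", `Y i` = elements "ending in `P i`". -/
structure Tree (N : ℕ) (P : ℕ → Γ) (X Y : ℕ → Set Γ) : Prop where
  disjX : ∀ j < N, ∀ j' < N, ∀ g, g ∈ X j → g ∈ X j' → j = j'
  disjY : ∀ i < N, ∀ i' < N, ∀ g, g ∈ Y i → g ∈ Y i' → i = i'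
  one : ∀ i < N, (1 : Γ) ∉ Y i
  inv : ∀ j < N, (P j)⁻¹ ∈ X j
  xy : ∀ j < N, ∀ i < N, i ≠ j → ∀ g ∈ X j, g * P i ∈ Y i
  yx : ∀ i < N, ∀ j < N, (i + 2 ≤ j ∨ j + 2 ≤ i) → ∀ g ∈ Y i, g * (P j)⁻¹ ∈ X j

set_option linter.unusedSectionVars false

/-- `x` is supported in `A` -/
def TSupp (x : RG Γ) (A : Set Γ) : Prop := ∀ g, x.coeff g ≠ 0 → g ∈ A

theorem TSupp.sum {ι : Type*} {s : Finset ι} {x : ι → RG Γ} {A : Set Γ}
    (h : ∀ i ∈ s, TSupp (x i) A) : TSupp (∑ i ∈ s, x i) A := by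
  intro g hg
  rw [MonoidAlgebra.coeff_sum, Finsupp.finsetSum_apply] at hg
  obtain ⟨i, hi, h'⟩ := Finset.exists_ne_zero_of_sum_ne_zero hg
  exact h i hi g h'

theorem TSupp.smul {x : RG Γ} {A : Set Γ} (h : TSupp x A) (c : ℝ) : TSupp (c • x) A := by
  intro g hg
  refine h g fun e => hg ?_
  simp [e]

theorem TSupp.sub {x y : RG Γ} {A : Set Γ} (h : TSupp x A) (h' : TSupp y A) : TSupp (x - y) A := by
  intro g hg
  by_contra hA
  have h1 : x.coeff g = 0 := by by_contra e; exact hA (h g e)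
  have h2 : y.coeff g = 0 := by by_contra e; exact hA (h' g e)
  exact hg (by simp [h1, h2])

theorem TSupp.mul_sg {x : RG Γ} {A B : Set Γ} (h : TSupp x A) (p : Γ) (hp : ∀ g ∈ A, g * p ∈ B) :
    TSupp (x * sg p) B := by
  intro g hg
  rw [coeff_mul_sg] at hg
  simpa using hp _ (h _ hg)

theorem tsupp_sg {p : Γ} {A : Set Γ} (hp : p ∈ A) : TSupp (sg p) A := by
  intro g hg
  by_contra hA
  exact hg (coeff_sg_ne fun e => hA (e ▸ hp))

theorem TSupp.ip_zero {x y : RG Γ} {A B : Set Γ} (h : TSupp x A) (h' : TSupp y B)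
    (hAB : ∀ g ∈ A, g ∉ B) : ip x y = 0 :=
  ip_eq_zero fun g hg => by
    by_contra e
    exact hAB g (h g hg) (h' g e)

/-- number of indices far from `i` -/
def tdeg (N i : ℕ) : ℕ := ((Finset.range N).filter fun j => i + 2 ≤ j ∨ j + 2 ≤ i).card

theorem tdeg_ge (N i : ℕ) : N ≤ tdeg N i + 3 := by
  have h : Finset.range N ⊆ ((Finset.range N).filter fun j => i + 2 ≤ j ∨ j + 2 ≤ i) ∪
      {i - 1, i, i + 1} := by
    intro j hj
    simp only [Finset.mem_union, Finset.mem_filter, hj, true_and, Finset.mem_insert,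
      Finset.mem_singleton]
    omega
  have h1 := (Finset.card_le_card h).trans (Finset.card_union_le _ _)
  rw [Finset.card_range] at h1
  exact h1.trans (Nat.add_le_add_left Finset.card_le_three _)

/-- `y x i` -/
noncomputable def ty (N : ℕ) (P : ℕ → Γ) (x : ℕ → RG Γ) (i : ℕ) : RG Γ :=
  (∑ j ∈ (Finset.range N).erase i, x j) * sg (P i)

/-- `Φ x j * sg (P j)` -/
noncomputable def tz (N : ℕ) (P : ℕ → Γ) (ρ : ℝ) (x : ℕ → RG Γ) (j : ℕ) : RG Γ :=
  ∑ i ∈ (Finset.range N).filter (fun i => i + 2 ≤ j ∨ j + 2 ≤ i), (ρ / tdeg N i) • ty N P x i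

/-- the total square norm -/
noncomputable def tS (N : ℕ) (x : ℕ → RG Γ) : ℝ := ∑ j ∈ Finset.range N, n2 (x j) ^ 2

theorem tS_nonneg (N : ℕ) (x : ℕ → RG Γ) : 0 ≤ tS N x :=
  Finset.sum_nonneg fun _ _ => sq_nonneg _

theorem ty_sub (N : ℕ) (P : ℕ → Γ) (x x' : ℕ → RG Γ) (i : ℕ) :
    ty N P (x - x') i = ty N P x i - ty N P x' i := by
  simp only [ty, Pi.sub_apply, Finset.sum_sub_distrib, sub_mul]

theorem tz_sub (N : ℕ) (P : ℕ → Γ) (ρ : ℝ) (x x' : ℕ → RG Γ) (j : ℕ) :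
    tz N P ρ (x - x') j = tz N P ρ x j - tz N P ρ x' j := by
  simp only [tz, ty_sub, smul_sub, Finset.sum_sub_distrib]

theorem sum_far {M : Type*} [AddCommMonoid M] (N : ℕ) (f : ℕ → M) :
    ∑ j ∈ Finset.range N, ∑ i ∈ (Finset.range N).filter (fun i => i + 2 ≤ j ∨ j + 2 ≤ i), f i =
      ∑ i ∈ Finset.range N, tdeg N i • f i := by
  rw [Finset.sum_comm' (t' := Finset.range N)
    (s' := fun i => (Finset.range N).filter fun j => i + 2 ≤ j ∨ j + 2 ≤ i)]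
  · simp only [Finset.sum_const, tdeg]
  · intro j i
    simp only [Finset.mem_filter]
    tauto

theorem sum_tz {N : ℕ} (hN : 4 ≤ N) (P : ℕ → Γ) (ρ : ℝ) (x : ℕ → RG Γ) :
    ∑ j ∈ Finset.range N, tz N P ρ x j = ρ • ∑ i ∈ Finset.range N, ty N P x i := by
  unfold tz
  rw [sum_far N fun i => (ρ / tdeg N i) • ty N P x i, Finset.smul_sum]
  refine Finset.sum_congr rfl fun i _ => ?_
  have h : (tdeg N i : ℝ) ≠ 0 := by
    have := tdeg_ge N i
    exact Nat.cast_ne_zero.2 (by omega)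
  rw [← Nat.cast_smul_eq_nsmul ℝ, smul_smul, mul_div_cancel₀ _ h]

theorem sum_mul_sum_sg (N : ℕ) (P : ℕ → Γ) (x : ℕ → RG Γ) :
    (∑ j ∈ Finset.range N, x j) * ∑ i ∈ Finset.range N, sg (P i) =
      ∑ i ∈ Finset.range N, x i * sg (P i) + ∑ i ∈ Finset.range N, ty N P x i := by
  rw [Finset.mul_sum, ← Finset.sum_add_distrib]
  refine Finset.sum_congr rfl fun i hi => ?_
  rw [ty, ← add_mul, Finset.add_sum_erase _ _ hi]

section
variable {N : ℕ} {P : ℕ → Γ} {X Y : ℕ → Set Γ} (T : Tree N P X Y) {x : ℕ → RG Γ}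
include T

theorem Tree.ty_supp (hx : ∀ j < N, TSupp (x j) (X j)) {i : ℕ} (hi : i < N) :
    TSupp (ty N P x i) (Y i) := by
  rw [ty, Finset.sum_mul]
  refine TSupp.sum fun j hj => ?_
  rw [Finset.mem_erase, Finset.mem_range] at hj
  exact (hx j hj.2).mul_sg _ (T.xy j hj.2 i hi hj.1.symm)

theorem Tree.n2_sum (hx : ∀ j < N, TSupp (x j) (X j)) {s : Finset ℕ} (hs : s ⊆ Finset.range N) :
    n2 (∑ j ∈ s, x j) ^ 2 = ∑ j ∈ s, n2 (x j) ^ 2 := by
  refine n2_sum_sq _ _ fun i hi j hj hij => ?_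
  have hi' := Finset.mem_range.1 (hs hi)
  have hj' := Finset.mem_range.1 (hs hj)
  exact (hx i hi').ip_zero (hx j hj') fun g h1 h2 => hij (T.disjX i hi' j hj' g h1 h2)

theorem Tree.n2_ty (hx : ∀ j < N, TSupp (x j) (X j)) (i : ℕ) : n2 (ty N P x i) ^ 2 ≤ tS N x := by
  rw [ty, n2_mul_sg, T.n2_sum hx (Finset.erase_subset _ _)]
  exact Finset.sum_le_sum_of_subset_of_nonneg (Finset.erase_subset _ _) fun _ _ _ => sq_nonneg _

theorem Tree.n2_sum_ty (hx : ∀ j < N, TSupp (x j) (X j)) {s : Finset ℕ} (hs : s ⊆ Finset.range N)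
    (c : ℕ → ℝ) : n2 (∑ i ∈ s, c i • ty N P x i) ^ 2 = ∑ i ∈ s, c i ^ 2 * n2 (ty N P x i) ^ 2 := by
  rw [n2_sum_sq]
  · simp only [map_smul_eq_mul, Real.norm_eq_abs, mul_pow, sq_abs]
  · intro i hi j hj hij
    have hi' := Finset.mem_range.1 (hs hi)
    have hj' := Finset.mem_range.1 (hs hj)
    exact ((T.ty_supp hx hi').smul _).ip_zero ((T.ty_supp hx hj').smul _)
      fun g h1 h2 => hij (T.disjY i hi' j hj' g h1 h2)

theorem Tree.n2_sumY (hx : ∀ j < N, TSupp (x j) (X j)) :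
    n2 (∑ i ∈ Finset.range N, ty N P x i) ^ 2 ≤ N * tS N x := by
  have := T.n2_sum_ty hx Finset.Subset.rfl fun _ => 1
  simp only [one_smul, one_pow, one_mul] at this
  rw [this]
  refine (Finset.sum_le_sum fun i _ => T.n2_ty hx i).trans ?_
  simp

theorem Tree.tz_supp (hx : ∀ j < N, TSupp (x j) (X j)) (ρ : ℝ) {j : ℕ} (hj : j < N) :
    TSupp (tz N P ρ x j * sg (P j)⁻¹) (X j) := by
  rw [tz, Finset.sum_mul]
  refine TSupp.sum fun i hi => ?_
  rw [Finset.mem_filter, Finset.mem_range] at hi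
  exact ((T.ty_supp hx hi.1).smul _).mul_sg _ (T.yx i hi.1 j hj hi.2)

theorem Tree.ip_one_tz (hx : ∀ j < N, TSupp (x j) (X j)) (ρ : ℝ) (j : ℕ) :
    ip (sg 1) (tz N P ρ x j) = 0 := by
  rw [tz, ip_sum_right]
  refine Finset.sum_eq_zero fun i hi => ?_
  rw [Finset.mem_filter, Finset.mem_range] at hi
  refine (tsupp_sg (A := {1}) rfl).ip_zero ((T.ty_supp hx hi.1).smul _) ?_
  rintro g rfl
  exact T.one i hi.1

theorem Tree.tS_tz (hN : 4 ≤ N) (hx : ∀ j < N, TSupp (x j) (X j)) (ρ : ℝ) :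
    tS N (tz N P ρ x) ≤ ρ ^ 2 * N / (N - 3) * tS N x := by
  unfold tS tz
  rw [Finset.sum_congr rfl fun j _ => T.n2_sum_ty hx (Finset.filter_subset _ _) _,
    sum_far N fun i => (ρ / tdeg N i) ^ 2 * n2 (ty N P x i) ^ 2]
  have hN' : (4 : ℝ) ≤ N := by exact_mod_cast hN
  have h : ∀ i ∈ Finset.range N, tdeg N i • ((ρ / tdeg N i) ^ 2 * n2 (ty N P x i) ^ 2) ≤
      ρ ^ 2 / (N - 3) * tS N x := by
    intro i _
    have h1 : (N : ℝ) ≤ tdeg N i + 3 := by exact_mod_cast tdeg_ge N i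
    have h2 : (0 : ℝ) < tdeg N i := by linarith
    have e : tdeg N i • ((ρ / tdeg N i) ^ 2 * n2 (ty N P x i) ^ 2) =
        ρ ^ 2 / tdeg N i * n2 (ty N P x i) ^ 2 := by
      rw [nsmul_eq_mul]; field_simp
    rw [e]
    refine mul_le_mul ?_ (T.n2_ty hx i) (sq_nonneg _) (div_nonneg (sq_nonneg _) (by linarith))
    exact div_le_div_of_nonneg_left (sq_nonneg _) (by linarith) (by linarith)
  refine (Finset.sum_le_sum h).trans (le_of_eq ?_)
  rw [Finset.sum_const, Finset.card_range, nsmul_eq_mul, tS]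
  ring

end

/-- the iteration -/
noncomputable def titer (N : ℕ) (P : ℕ → Γ) (ρ : ℝ) : ℕ → ℕ → RG Γ
  | 0 => 0
  | L + 1 => fun j => ((1 / N : ℝ) • sg 1 - tz N P ρ (titer N P ρ L) j) * sg (P j)⁻¹

section
variable {N : ℕ} {P : ℕ → Γ} {X Y : ℕ → Set Γ} (T : Tree N P X Y)
include T

theorem Tree.titer_supp (ρ : ℝ) (L : ℕ) : ∀ j < N, TSupp (titer N P ρ L j) (X j) := by
  induction L with
  | zero => intro j _ g hg; simp [titer] at hg
  | succ L ih =>
    intro j hj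
    simp only [titer]
    rw [sub_mul, smul_mul_assoc, ← map_mul, one_mul]
    exact ((tsupp_sg (T.inv j hj)).smul _).sub (T.tz_supp ih ρ hj)

theorem Tree.tS_titer_succ (hN : 4 ≤ N) (ρ : ℝ) (L : ℕ) :
    tS N (titer N P ρ (L + 1)) ≤ 1 / N + ρ ^ 2 * N / (N - 3) * tS N (titer N P ρ L) := by
  refine le_trans (le_of_eq ?_) (add_le_add le_rfl (T.tS_tz hN (T.titer_supp ρ L) ρ))
  have hN' : (N : ℝ) ≠ 0 := Nat.cast_ne_zero.2 (by omega)
  unfold tS
  simp only [titer, n2_mul_sg, n2_sub_sq, ip_smul_left, T.ip_one_tz (T.titer_supp ρ L),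
    map_smul_eq_mul, n2_sg, Real.norm_eq_abs, mul_zero, sub_zero, mul_one, sq_abs,
    Finset.sum_add_distrib, Finset.sum_const, Finset.card_range, nsmul_eq_mul]
  field_simp

theorem Tree.tS_titer (hN : 4 ≤ N) {ρ η : ℝ} (hη : 0 < η) (hq : ρ ^ 2 * N / (N - 3) ≤ 1 - η)
    (L : ℕ) : tS N (titer N P ρ L) ≤ 1 / (N * η) := by
  have hN' : (4 : ℝ) ≤ N := by exact_mod_cast hN
  induction L with
  | zero =>
    have : tS N (titer N P ρ 0) = 0 := by simp [tS, titer]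
    rw [this]; positivity
  | succ L ih =>
    refine (T.tS_titer_succ hN ρ L).trans ?_
    have h0 : 0 ≤ ρ ^ 2 * N / (N - 3) := div_nonneg (by positivity) (by linarith)
    have h1 := mul_le_mul hq ih (tS_nonneg _ _) (h0.trans hq)
    refine (add_le_add le_rfl h1).trans (le_of_eq ?_)
    field_simp
    ring

theorem Tree.tS_titer_sub (hN : 4 ≤ N) {ρ η : ℝ} (hq : ρ ^ 2 * N / (N - 3) ≤ 1 - η)
    (L : ℕ) : tS N (titer N P ρ (L + 1) - titer N P ρ L) ≤ (1 - η) ^ L / N := by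
  have hN' : (4 : ℝ) ≤ N := by exact_mod_cast hN
  induction L with
  | zero =>
    have h0 : tS N (titer N P ρ 0) = 0 := by simp [tS, titer]
    have h1 := T.tS_titer_succ hN ρ 0
    rw [h0, mul_zero, add_zero] at h1
    rw [show titer N P ρ 0 = 0 from rfl, sub_zero, pow_zero]
    exact h1
  | succ L ih =>
    have e : tS N (titer N P ρ (L + 1 + 1) - titer N P ρ (L + 1)) =
        tS N (tz N P ρ (titer N P ρ (L + 1) - titer N P ρ L)) := by
      unfold tS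
      refine Finset.sum_congr rfl fun j _ => ?_
      rw [tz_sub, Pi.sub_apply, titer, titer, ← sub_mul, n2_mul_sg, sub_sub_sub_cancel_left,
        map_sub_rev]
    have h0 : 0 ≤ ρ ^ 2 * N / (N - 3) := div_nonneg (by positivity) (by linarith)
    rw [e]
    refine (T.tS_tz hN (fun j hj => (T.titer_supp ρ (L + 1) j hj).sub (T.titer_supp ρ L j hj))
      ρ).trans ?_
    refine (mul_le_mul hq ih (tS_nonneg _ _) (h0.trans hq)).trans (le_of_eq ?_)
    ring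

end

theorem titer_err {N : ℕ} (hN : 4 ≤ N) (P : ℕ → Γ) (ρ : ℝ) (L : ℕ) :
    (∑ j ∈ Finset.range N, titer N P ρ (L + 1) j) * ∑ i ∈ Finset.range N, sg (P i) - 1 =
      (1 - ρ) • ∑ i ∈ Finset.range N, ty N P (titer N P ρ (L + 1)) i +
        ρ • ∑ i ∈ Finset.range N, ty N P (titer N P ρ (L + 1) - titer N P ρ L) i := by
  have hN' : (N : ℝ) ≠ 0 := Nat.cast_ne_zero.2 (by omega)
  have e : ∑ i ∈ Finset.range N, titer N P ρ (L + 1) i * sg (P i) =
      1 - ρ • ∑ i ∈ Finset.range N, ty N P (titer N P ρ L) i := by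
    simp only [titer, mul_assoc, sg_inv_mul, mul_one, Finset.sum_sub_distrib, sum_tz hN,
      Finset.sum_const, Finset.card_range, map_one]
    rw [← Nat.cast_smul_eq_nsmul ℝ, smul_smul, mul_one_div_cancel hN', one_smul]
  rw [sum_mul_sum_sg, e]
  simp only [ty_sub, Finset.sum_sub_distrib]
  module

/-- **Small approximate inverse.**  Proof. Fix `ρ < 1` close to `1`, `N` large, `q = ρ² N / (N - 3) < 1`.
`far i j := i + 2 ≤ j ∨ j + 2 ≤ i` (symmetric), `d i = #{j < N | far i j} ≥ N - 3 > 0`.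
For a family `x : ℕ → RG Γ` put `y x i = (∑ j < N, j ≠ i, x j) * sg (P i)` and
`Φ x j = (∑ i < N with far i j, (ρ / d i) • y x i) * sg (P j)⁻¹` (linear in `x`).  Call `x` admissible if
`x j` is supported in `X j` for `j < N`; then `y x i` is supported in `Y i`, `Φ x` is admissible, and by
Pythagoras (`n2_sum_sq`, `ip_eq_zero`, `n2_mul_sg`), with `S x = ∑ j < N, n2 (x j) ^ 2`:
`n2 (y x i)^2 ≤ S x`, `n2 (∑ i < N, y x i)^2 ≤ N * S x`, `n2 (∑ j < N, x j)^2 = S x`,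
`S (Φ x) = ∑_i ρ² / d i * n2 (y x i)^2 ≤ q * S x`.
Define `x₀ = 0`, `x_{L+1} j = (1/N) • sg (P j)⁻¹ - Φ x_L j`.  Since `1 ∉ Y i` the two terms are orthogonal,
`S x_{L+1} ≤ 1/N + q S x_L`, so `S x_L ≤ 1 / (N (1 - q))`; `x_{L+2} - x_{L+1} = - Φ (x_{L+1} - x_L)`, so
`S (x_{L+1} - x_L) ≤ q^L / N`.  With `Y_L = ∑ i < N, y x_L i`:
`(∑ j < N, x_{L+1} j) * ∑ i < N, sg (P i) = ∑_j x_{L+1} j * sg (P j) + Y_{L+1} = 1 - ρ • Y_L + Y_{L+1}`, so the
error is `(1 - ρ) • Y_{L+1} + ρ • (Y_{L+1} - Y_L)`, of norm `≤ (1 - ρ) / √(1 - q) + √(q^L)`.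
Choose `ρ = 1 - η`; for `N` large `q ≤ ρ`, i.e. `1 - q ≥ η`, so the first term is `≤ √η`. -/
theorem tree_inverse {ε : ℝ} (hε : 0 < ε) : ∃ N : ℕ, ∀ (P : ℕ → Γ) (X Y : ℕ → Set Γ),
    Tree N P X Y → ∃ x : RG Γ, n2 x ≤ ε ∧ n2 (x * ∑ i ∈ Finset.range N, sg (P i) - 1) ≤ ε := by
  obtain ⟨η, hη, hη1, hηε⟩ : ∃ η : ℝ, 0 < η ∧ η ≤ 1 / 2 ∧ η ≤ (ε / 2) ^ 2 :=
    ⟨min (1 / 2) ((ε / 2) ^ 2), by positivity, min_le_left _ _, min_le_right _ _⟩
  obtain ⟨N, hN⟩ := exists_nat_ge (max (max 4 (3 / η)) (1 / (η * ε ^ 2)))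
  have hN4 : (4 : ℝ) ≤ N := ((le_max_left _ _).trans (le_max_left _ _)).trans hN
  have hN3 : 3 ≤ N * η := (div_le_iff₀ hη).1 (((le_max_right _ _).trans (le_max_left _ _)).trans hN)
  have hNε : 1 ≤ N * (η * ε ^ 2) := (div_le_iff₀ (by positivity)).1 ((le_max_right _ _).trans hN)
  have hN4' : 4 ≤ N := by exact_mod_cast hN4
  have hq : (1 - η) ^ 2 * N / (N - 3) ≤ 1 - η := by
    rw [div_le_iff₀ (by linarith)]
    nlinarith
  obtain ⟨L, hL⟩ := exists_pow_lt_of_lt_one (show 0 < (ε / 2) ^ 2 by positivity)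
    (show 1 - η < 1 by linarith)
  refine ⟨N, fun P X Y T => ⟨∑ j ∈ Finset.range N, titer N P (1 - η) (L + 1) j, ?_, ?_⟩⟩
  · refine (pow_le_pow_iff_left₀ (n2_nonneg _) hε.le two_ne_zero).1 ?_
    rw [T.n2_sum (T.titer_supp _ _) Finset.Subset.rfl]
    refine (T.tS_titer hN4' hη hq _).trans ?_
    rw [div_le_iff₀ (by positivity)]
    linarith
  · rw [titer_err hN4', sub_sub_cancel]
    refine (map_add_le_add _ _ _).trans ?_
    rw [← add_halves ε]
    refine add_le_add ((pow_le_pow_iff_left₀ (n2_nonneg _) (by positivity) two_ne_zero).1 ?_)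
      ((pow_le_pow_iff_left₀ (n2_nonneg _) (by positivity) two_ne_zero).1 ?_)
    · rw [map_smul_eq_mul, mul_pow, Real.norm_eq_abs, sq_abs]
      have h1 := (T.n2_sumY (T.titer_supp (1 - η) (L + 1))).trans
        (mul_le_mul_of_nonneg_left (T.tS_titer hN4' hη hq (L + 1)) (by positivity))
      refine (mul_le_mul_of_nonneg_left h1 (sq_nonneg _)).trans (le_trans (le_of_eq ?_) hηε)
      field_simp
    · rw [map_smul_eq_mul, mul_pow, Real.norm_eq_abs, sq_abs]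
      have h1 := (T.n2_sumY (x := titer N P (1 - η) (L + 1) - titer N P (1 - η) L)
        fun j hj => (T.titer_supp _ (L + 1) j hj).sub (T.titer_supp _ L j hj)).trans
        (mul_le_mul_of_nonneg_left (T.tS_titer_sub hN4' hq L) (by positivity))
      rw [mul_div_cancel₀ _ (by positivity)] at h1
      refine (mul_le_of_le_one_left (sq_nonneg _) ?_).trans (h1.trans hL.le)
      nlinarith

end Crest.Agent.R134
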