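import Crest.Prelude.Def_GroupVNA
import Crest.Agent.R95.Bridge2
import Crest.Agent.R134.Basic

/-! # rid 134: the group von Neumann algebra with its trace (task `VN`) -/

set_option autoImplicit false

open Crest.Agent.R95 Crest.OpAlg

namespace Crest.Agent.R134

/-- `L(G)` as a C⋆-algebra -/
noncomputable abbrev LG (G : Type*) [Group G] := (groupVNA G).toStarSubalgebra

/-- `δ_g` -/
noncomputable abbrev dl {G : Type*} [DecidableEq G] (g : G) : ltwo G := lp.single 2 g (1 : ℂ)

/-- what we use about `L(G)`, its trace `τ` and the left regular representation `lam` -/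
structure GTr (G : Type*) [Group G] [DecidableEq G] (τ : Tr (LG G)) (lam : G →* LG G) : Prop where
  isW : τ.IsW
  tr : ∀ x : LG G, τ x = groupTrace G x
  n : ∀ x : LG G, τ.n x = ‖(x : ltwo G →L[ℂ] ltwo G) (dl 1)‖
  reg : Reg τ lam
  coe : ∀ g, (lam g : ltwo G →L[ℂ] ltwo G) = leftRegular g
  comm : ∀ (S : StarSubalgebra ℂ (LG G)) (x : LG G), (∀ ε > 0, ∃ a ∈ S, τ.n (x - a) < ε) →
    ∀ T : ltwo G →L[ℂ] ltwo G, (∀ a ∈ S, T * (a : ltwo G →L[ℂ] ltwo G) = a * T) →
      T * (x : ltwo G →L[ℂ] ltwo G) = x * T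

theorem leftRegular_dl {G : Type*} [Group G] [DecidableEq G] (g h : G) :
    leftRegular g (dl h) = dl (g * h) := by
  ext k
  change (dl h : ltwo G) (g⁻¹ * k) = _
  simp only [lp.single_apply, Pi.single_apply, inv_mul_eq_iff_eq_mul]

namespace VNAux

open scoped InnerProductSpace ComplexConjugate

variable {G : Type*} [Group G]

theorem lam_apply (g : G) (ξ : ltwo G) (h : G) : leftRegular g ξ h = ξ (g⁻¹ * h) := rfl

theorem lam_one : leftRegular (1 : G) = 1 := by
  ext ξ h
  simp [lam_apply]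

theorem lam_mul (g h : G) : leftRegular (g * h) = leftRegular g * leftRegular h := by
  ext ξ k
  simp [lam_apply, mul_assoc]

theorem star_lam (g : G) : star (leftRegular g) = leftRegular g⁻¹ := by
  rw [ContinuousLinearMap.star_eq_adjoint, eq_comm, ContinuousLinearMap.eq_adjoint_iff]
  intro x y
  have h1 : ⟪leftRegular g (leftRegular g⁻¹ x), leftRegular g y⟫_ℂ = ⟪leftRegular g⁻¹ x, y⟫_ℂ :=
    (ltwoReindex (Equiv.mulLeft g⁻¹)).inner_map_map _ _
  have h2 : leftRegular g (leftRegular g⁻¹ x) = x := by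
    ext k
    simp [lam_apply]
  rw [← h1, h2]

/-- the right regular representation -/
noncomputable def rho (g : G) : ltwo G →L[ℂ] ltwo G :=
  ((ltwoReindex (Equiv.mulRight g) : ltwo G ≃ₗᵢ[ℂ] ltwo G) : ltwo G →L[ℂ] ltwo G)

theorem rho_apply (g : G) (ξ : ltwo G) (h : G) : rho g ξ h = ξ (h * g) := rfl

theorem lam_rho (g h : G) : leftRegular g * rho h = rho h * leftRegular g := by
  ext ξ k
  simp [lam_apply, rho_apply, mul_assoc]

theorem rho_comm {x : ltwo G →L[ℂ] ltwo G} (hx : x ∈ groupVNA G) (g : G) :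
    rho g * x = x * rho g := by
  have h : rho g ∈ StarSubalgebra.centralizer ℂ (Set.range (leftRegular (G := G))) := by
    rw [StarSubalgebra.mem_centralizer_iff]
    rintro _ ⟨h, rfl⟩
    exact ⟨lam_rho h g, by rw [star_lam]; exact lam_rho _ g⟩
  exact ((StarSubalgebra.mem_centralizer_iff ℂ).1 hx _ h).1

theorem lam_mem (g : G) : leftRegular g ∈ groupVNA G := by
  refine (StarSubalgebra.mem_centralizer_iff ℂ).2 fun T hT => ⟨?_, ?_⟩
  · exact (((StarSubalgebra.mem_centralizer_iff ℂ).1 hT) _ ⟨g, rfl⟩).1.symm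
  · exact (((StarSubalgebra.mem_centralizer_iff ℂ).1 (star_mem hT)) _ ⟨g, rfl⟩).1.symm

variable [DecidableEq G]

theorem rho_dl (g : G) : rho g⁻¹ (dl 1) = dl g := by
  ext k
  simp only [rho_apply, lp.single_apply, Pi.single_apply, mul_inv_eq_one]

theorem apply_dl {x : ltwo G →L[ℂ] ltwo G} (hx : x ∈ groupVNA G) (g : G) :
    x (dl g) = rho g⁻¹ (x (dl 1)) := by
  rw [← rho_dl]
  exact (congrArg (fun T : ltwo G →L[ℂ] ltwo G => T (dl 1)) (rho_comm hx g⁻¹)).symm

theorem eq_zero {x : ltwo G →L[ℂ] ltwo G} (hx : x ∈ groupVNA G) (h : x (dl 1) = 0) : x = 0 := by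
  ext1 ξ
  have h1 := x.hasSum (lp.hasSum_single (p := 2) (by simp) ξ)
  have h2 : ∀ g, x (lp.single 2 g (ξ g)) = 0 := by
    intro g
    have : (lp.single 2 g (ξ g) : ltwo G) = ξ g • dl g := by
      rw [← lp.single_smul, smul_eq_mul, mul_one]
    rw [this, map_smul, apply_dl hx, h, map_zero, smul_zero]
  simp only [h2] at h1
  exact h1.unique hasSum_zero

theorem star_apply_dl {x : ltwo G →L[ℂ] ltwo G} (hx : x ∈ groupVNA G) (h : G) :
    (star x) (dl 1) h = conj (x (dl 1) h⁻¹) := by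
  have h1 : ⟪(dl h : ltwo G), (star x) (dl 1)⟫_ℂ = ⟪x (dl h), dl 1⟫_ℂ := by
    rw [ContinuousLinearMap.star_eq_adjoint, ContinuousLinearMap.adjoint_inner_right]
  rw [lp.inner_single_left, lp.inner_single_right, apply_dl hx, rho_apply] at h1
  simpa using h1

theorem trace_mul {x : ltwo G →L[ℂ] ltwo G} (hx : x ∈ groupVNA G) (y : ltwo G →L[ℂ] ltwo G) :
    groupTrace G (x * y) = ∑' h, x (dl 1) h⁻¹ * y (dl 1) h := by
  have h1 : groupTrace G (x * y) = ⟪(star x) (dl 1), y (dl 1)⟫_ℂ := by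
    rw [ContinuousLinearMap.star_eq_adjoint, ContinuousLinearMap.adjoint_inner_left]
    rfl
  rw [h1, lp.inner_eq_tsum]
  refine tsum_congr fun h => ?_
  rw [star_apply_dl hx]
  simp [mul_comm]

theorem trace_comm {x y : ltwo G →L[ℂ] ltwo G} (hx : x ∈ groupVNA G) (hy : y ∈ groupVNA G) :
    groupTrace G (x * y) = groupTrace G (y * x) := by
  rw [trace_mul hx, trace_mul hy, ← (Equiv.inv G).tsum_eq]
  refine tsum_congr fun h => ?_
  simp [mul_comm]

/-- the vector sequence presenting the trace -/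
noncomputable def xi (G : Type*) [Group G] [DecidableEq G] (n : ℕ) : ltwo G :=
  if n = 0 then dl 1 else 0

theorem vectorState_xi (x : ltwo G →L[ℂ] ltwo G) : vectorState (xi G) x = groupTrace G x := by
  rw [vectorState, tsum_eq_single 0 fun n hn => by simp [xi, hn]]
  rfl

theorem traceNormSq_xi (x : ltwo G →L[ℂ] ltwo G) : traceNormSq (xi G) x = ‖x (dl 1)‖ ^ 2 := by
  rw [traceNormSq, tsum_eq_single 0 fun n hn => by simp [xi, hn]]
  rfl

theorem faithful : IsFaithfulTracialVectorState (groupVNA G) (xi G) := by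
  refine ⟨?_, fun x hx y hy => ?_, fun x hx h => eq_zero hx (h 0)⟩
  · have h := hasSum_single (f := fun n => ‖xi G n‖ ^ 2) 0 fun n hn => by simp [xi, hn]
    have e : ‖xi G 0‖ ^ 2 = 1 := by
      simp [xi, lp.norm_single]
    rwa [e] at h
  · rw [vectorState_xi, vectorState_xi, trace_comm hx hy]

end VNAux

open VNAux in
/-- Proof. `ξ n = if n = 0 then dl 1 else 0` is a faithful tracial vector state of `groupVNA G`; then
use `exists_vTr`, `vTr_isW`, `comm_of_approx` of `R95.Bridge`, `R95.Bridge2`.  The right regular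
unitaries `ρ g = ltwoReindex (Equiv.mulRight g)` commute with all `leftRegular h` (and
`star (leftRegular h) = leftRegular h⁻¹`), hence with every `x ∈ groupVNA G`; `ρ g⁻¹ (dl 1) = dl g`.
So `x (dl g) h = x (dl 1) (h * g⁻¹)`: faithfulness (`lp.hasSum_single`, or density of the span of the
`dl g`), `(star x) (dl 1) h = conj (x (dl 1) h⁻¹)`, and
`τ (x * y) = ⟪star x (dl 1), y (dl 1)⟫ = ∑' h, x (dl 1) h⁻¹ * y (dl 1) h` is symmetric
(`lp.inner_eq_tsum`, `Equiv.tsum_eq (Equiv.inv G)`). -/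
theorem exists_gTr (G : Type*) [Group G] [DecidableEq G] :
    ∃ (τ : Tr (LG G)) (lam : G →* LG G), GTr G τ lam := by
  obtain ⟨τ, h1, h2⟩ := exists_vTr (faithful (G := G))
  let lam : G →* LG G :=
    { toFun := fun g => ⟨leftRegular g, lam_mem g⟩
      map_one' := Subtype.ext lam_one
      map_mul' := fun g h => Subtype.ext (lam_mul g h) }
  refine ⟨τ, lam, vTr_isW faithful h2, fun x => by rw [h1, vectorState_xi], fun x => ?_,
    ⟨fun g => Subtype.ext (star_lam g), fun g hg => ?_⟩, fun g => rfl,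
    fun S x hx T hT => comm_of_approx faithful h2 S hx hT⟩
  · have h3 := h2 x
    rw [traceNormSq_xi] at h3
    exact (pow_left_inj₀ (τ.n_nonneg x) (norm_nonneg _) two_ne_zero).1 h3
  · rw [h1, vectorState_xi]
    change inner ℂ (dl 1 : ltwo G) (leftRegular g (dl 1)) = 0
    rw [leftRegular_dl, lp.inner_single_left]
    simp [hg.symm]

end Crest.Agent.R134
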